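import Crest.Agent.R168.Channel

/-!
Row 168: product measure lemmas.
-/

set_option autoImplicit false

open MeasureTheory Filter Topology

namespace Crest.Agent.R168

noncomputable section

lemma integrable_of_bdd {Ω : Type*} [MeasurableSpace Ω] {P : Measure Ω} [IsFiniteMeasure P]
    {f : Ω → ℝ} (hf : Measurable f) {C : ℝ} (hC : ∀ x, |f x| ≤ C) : Integrable f P :=
  Integrable.of_bound hf.aestronglyMeasurable C (ae_of_all _ hC)

lemma map_update_infinitePi {K X : Type*} [DecidableEq K] [MeasurableSpace X] (μ : K → Measure X)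
    [∀ i, IsProbabilityMeasure (μ i)] (a : K) :
    ((Measure.infinitePi μ).prod (μ a)).map
      (fun p : (K → X) × X => Function.update p.1 a p.2) = Measure.infinitePi μ := by
  refine Measure.eq_infinitePi _ fun s t ht => ?_
  rw [Measure.map_apply measurable_update' (.pi s.countable_toSet fun _ _ => ht _)]
  by_cases ha : a ∈ s
  · have : (fun p : (K → X) × X => Function.update p.1 a p.2) ⁻¹' (s : Set K).pi t =
        ((s.erase a : Finset K) : Set K).pi t ×ˢ t a := by
      ext p
      simp only [Set.mem_preimage, Set.mem_pi, Finset.mem_coe, Set.mem_prod, Finset.mem_erase]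
      constructor
      · intro h
        refine ⟨fun i hi => ?_, ?_⟩
        · have := h i hi.2
          rwa [Function.update_of_ne hi.1] at this
        · have := h a ha
          rwa [Function.update_self] at this
      · rintro ⟨h1, h2⟩ i hi
        by_cases hia : i = a
        · subst hia; rwa [Function.update_self]
        · rw [Function.update_of_ne hia]; exact h1 i ⟨hia, hi⟩
    rw [this, Measure.prod_prod, Measure.infinitePi_pi _ (fun i _ => ht i),
      Finset.prod_erase_mul _ _ ha]
  · have : (fun p : (K → X) × X => Function.update p.1 a p.2) ⁻¹' (s : Set K).pi t =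
        (s : Set K).pi t ×ˢ Set.univ := by
      ext p
      simp only [Set.mem_preimage, Set.mem_pi, Finset.mem_coe, Set.mem_prod, Set.mem_univ,
        and_true]
      refine forall₂_congr fun i hi => ?_
      rw [Function.update_of_ne (by rintro rfl; exact ha hi)]
    rw [this, Measure.prod_prod, Measure.infinitePi_pi _ (fun i _ => ht i), measure_univ, mul_one]

lemma integral_update_infinitePi {K X : Type*} [DecidableEq K] [MeasurableSpace X]
    (μ : K → Measure X) [∀ i, IsProbabilityMeasure (μ i)] (a : K) {f : (K → X) → ℝ}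
    (hf : Measurable f) {C : ℝ} (hC : ∀ x, |f x| ≤ C) :
    ∫ x, f x ∂Measure.infinitePi μ =
      ∫ x, ∫ t, f (Function.update x a t) ∂μ a ∂Measure.infinitePi μ := by
  conv_lhs => rw [← map_update_infinitePi μ a]
  rw [integral_map measurable_update'.aemeasurable hf.aestronglyMeasurable, integral_prod]
  exact integrable_of_bdd (hf.comp measurable_update') (fun _ => hC _)

lemma pi_mu_eq {B : Type*} [Fintype B] (β : B → Bool) :
    Measure.pi (fun i => mu (β i)) = (Measure.pi fun _ : B => lam0).withDensity
      (fun x => ENNReal.ofReal (∏ i, dens (sg (β i)) (x i))) := by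
  refine Measure.pi_eq fun s hs => ?_
  have hm : Measurable (fun x : B → ℝ => ∏ i, dens (sg (β i)) (x i)) :=
    Finset.measurable_prod _ fun i _ => (measurable_dens _).comp (measurable_pi_apply i)
  have hpos : ∀ x : B → ℝ, 0 ≤ ∏ i, dens (sg (β i)) (x i) := fun x =>
    Finset.prod_nonneg fun i _ => (dens_pos _ _).le
  have hbd : ∀ x : B → ℝ, |∏ i, dens (sg (β i)) (x i)| ≤ ∏ _i : B, (2 : ℝ) := fun x => by
    rw [Finset.abs_prod]
    exact Finset.prod_le_prod (fun i _ => abs_nonneg _) fun i _ => abs_dens_le _ _
  rw [withDensity_apply _ (.univ_pi hs), ← ofReal_integral_eq_lintegral_ofReal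
    (integrable_of_bdd hm hbd) (ae_of_all _ hpos), ← integral_indicator (.univ_pi hs)]
  have : (Set.univ.pi s).indicator (fun x : B → ℝ => ∏ i, dens (sg (β i)) (x i)) =
      fun x => ∏ i, (s i).indicator (dens (sg (β i))) (x i) := by
    funext x
    by_cases hx : x ∈ Set.univ.pi s
    · rw [Set.indicator_of_mem hx]
      exact Finset.prod_congr rfl fun i _ => (Set.indicator_of_mem (hx i trivial) _).symm
    · rw [Set.indicator_of_notMem hx]
      simp only [Set.mem_pi, Set.mem_univ, true_imp_iff, not_forall] at hx
      obtain ⟨i, hi⟩ := hx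
      exact (Finset.prod_eq_zero (Finset.mem_univ i) (Set.indicator_of_notMem hi _)).symm
  rw [this, integral_fintype_prod_eq_prod (fun i => (s i).indicator (dens (sg (β i)))),
    ENNReal.ofReal_prod_of_nonneg (fun i _ => integral_nonneg fun x =>
      Set.indicator_nonneg (fun y _ => (dens_pos _ y).le) x)]
  refine Finset.prod_congr rfl fun i _ => ?_
  rw [mu, withDensity_apply _ (hs i), integral_indicator (hs i),
    ofReal_integral_eq_lintegral_ofReal
      (integrable_of_bdd (measurable_dens _) (abs_dens_le _))
      (ae_of_all _ fun x => (dens_pos _ x).le)]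

lemma integral_pi_mu {B : Type*} [Fintype B] (β : B → Bool) (g : (B → ℝ) → ℝ) :
    ∫ x, g x ∂Measure.pi (fun i => mu (β i)) =
      ∫ x, (∏ i, dens (sg (β i)) (x i)) * g x ∂Measure.pi (fun _ : B => lam0) := by
  have hm : Measurable (fun x : B → ℝ => ∏ i, dens (sg (β i)) (x i)) :=
    Finset.measurable_prod _ fun i _ => (measurable_dens _).comp (measurable_pi_apply i)
  rw [pi_mu_eq, integral_withDensity_eq_integral_toReal_smul hm.ennreal_ofReal
    (ae_of_all _ fun x => ENNReal.ofReal_lt_top)]
  refine integral_congr_ae (ae_of_all _ fun x => ?_)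
  simp only [smul_eq_mul]
  rw [ENNReal.toReal_ofReal (Finset.prod_nonneg fun i _ => (dens_pos _ _).le)]

/-- the law of all observations given the configuration -/
def obsKernel (I : Type*) : ProbabilityTheory.Kernel (I → Bool) (ℕ × I → ℝ) where
  toFun σ := Measure.infinitePi (fun a : ℕ × I => mu (σ a.2))
  measurable' := by
    have h : ∀ b : Bool, ∃ f : unitInterval → ℝ, Measurable f ∧ volume.map f = mu b :=
      fun b => Measure.exists_measurable_map_eq (mu b)
    choose q hq hq' using h
    have hm : Measurable (fun p : (I → Bool) × (ℕ × I → unitInterval) =>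
        fun a : ℕ × I => q (p.1 a.2) (p.2 a)) := by
      refine measurable_pi_lambda _ fun a => ?_
      have h1 : Measurable (fun p : Bool × unitInterval => q p.1 p.2) :=
        measurable_from_prod_countable_right fun b => hq b
      have h2 : Measurable (fun p : (I → Bool) × (ℕ × I → unitInterval) => (p.1 a.2, p.2 a)) := by
        fun_prop
      exact h1.comp h2
    refine Measure.measurable_of_measurable_coe _ fun s hs => ?_
    have : (fun σ : I → Bool => Measure.infinitePi (fun a : ℕ × I => mu (σ a.2)) s) =
        fun σ => Measure.infinitePi (fun _ : ℕ × I => (volume : Measure unitInterval))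
          (Prod.mk σ ⁻¹' ((fun p : (I → Bool) × (ℕ × I → unitInterval) =>
            fun a : ℕ × I => q (p.1 a.2) (p.2 a)) ⁻¹' s)) := by
      funext σ
      have := Measure.infinitePi_map_pi (fun _ : ℕ × I => (volume : Measure unitInterval))
        (f := fun a => q (σ a.2)) (fun a => hq _)
      simp only [hq'] at this
      have hm' : Measurable (fun (x : ℕ × I → unitInterval) (i : ℕ × I) => q (σ i.2) (x i)) :=
        measurable_pi_lambda _ fun a => (hq _).comp (measurable_pi_apply a)
      rw [← this, Measure.map_apply hm' hs]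
      rfl
    rw [this]
    exact measurable_measure_prodMk_left (hm hs)

lemma obsKernel_apply {I : Type*} (σ : I → Bool) :
    obsKernel I σ = Measure.infinitePi (fun a : ℕ × I => mu (σ a.2)) := rfl

instance (I : Type*) : ProbabilityTheory.IsMarkovKernel (obsKernel I) :=
  ⟨fun σ => by rw [obsKernel_apply]; infer_instance⟩

lemma ae_obs_abs_le {I : Type*} [Countable I] (σ : I → Bool) :
    ∀ᵐ X ∂obsKernel I σ, ∀ a, |X a| ≤ 1 := by
  rw [ae_all_iff]
  intro a
  have := (measurePreserving_eval_infinitePi (fun a : ℕ × I => mu (σ a.2)) a).quasiMeasurePreserving.ae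
    (ae_mu_mem (σ a.2))
  filter_upwards [this] with X hX
  exact abs_le.2 ⟨by linarith [hX.1], hX.2⟩

lemma ae_obs_out {I : Type*} [Countable I] (σ : I → Bool) :
    ∀ᵐ X ∂obsKernel I σ, out X = σ := by
  have : ∀ v, ∀ᵐ X ∂obsKernel I σ, out X v = σ v := by
    intro v
    have hind : ProbabilityTheory.iIndepFun (fun (a : ℕ × I) (X : ℕ × I → ℝ) => 2 * X a - 1)
        (obsKernel I σ) :=
      ProbabilityTheory.iIndepFun_infinitePi (X := fun _ (x : ℝ) => 2 * x - 1) (by fun_prop)
    have hind' : ProbabilityTheory.iIndepFun (fun (k : ℕ) (X : ℕ × I → ℝ) => 2 * X (k, v) - 1)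
        (obsKernel I σ) :=
      hind.precomp (g := fun k : ℕ => (k, v)) (fun _ _ h => (Prod.ext_iff.1 h).1)
    have hmp : ∀ k : ℕ, MeasurePreserving (fun X : ℕ × I → ℝ => X (k, v)) (obsKernel I σ)
        (mu (σ v)) := fun k =>
      measurePreserving_eval_infinitePi (fun a : ℕ × I => mu (σ a.2)) (k, v)
    have hint0 : Integrable (fun x : ℝ => 2 * x - 1) (mu (σ v)) := by
      refine Integrable.of_bound (by fun_prop) 1 ?_
      filter_upwards [ae_mu_mem (σ v)] with x hx
      exact abs_le.2 ⟨by linarith [hx.1], by linarith [hx.2]⟩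
    have hint : Integrable (fun X : ℕ × I → ℝ => 2 * X (0, v) - 1) (obsKernel I σ) :=
      (hmp 0).integrable_comp_of_integrable hint0
    have hid : ∀ k : ℕ, ProbabilityTheory.IdentDistrib (fun X : ℕ × I → ℝ => 2 * X (k, v) - 1)
        (fun X : ℕ × I → ℝ => 2 * X (0, v) - 1) (obsKernel I σ) (obsKernel I σ) := by
      intro k
      have : ProbabilityTheory.IdentDistrib (fun X : ℕ × I → ℝ => X (k, v))
          (fun X : ℕ × I → ℝ => X (0, v)) (obsKernel I σ) (obsKernel I σ) :=
        ⟨(hmp k).measurable.aemeasurable, (hmp 0).measurable.aemeasurable,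
          (hmp k).map_eq.trans (hmp 0).map_eq.symm⟩
      exact this.comp (u := fun x : ℝ => 2 * x - 1) (by fun_prop)
    have hmean : ∫ X, (2 * X (0, v) - 1) ∂obsKernel I σ = eps * (2 * sg (σ v) - 1) / 3 := by
      rw [← integral_mu_mean, ← (hmp 0).map_eq, integral_map (hmp 0).measurable.aemeasurable
        (by fun_prop)]
    have := ProbabilityTheory.strong_law_ae_real
      (fun (k : ℕ) (X : ℕ × I → ℝ) => 2 * X (k, v) - 1) hint
      (fun i j hij => hind'.indepFun hij) hid
    filter_upwards [this] with X hX
    rw [hmean] at hX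
    cases hσ : σ v
    · have hneg : eps * (2 * sg (σ v) - 1) / 3 < 0 := by rw [hσ]; norm_num [sg, eps]
      have h1 := hX.eventually (gt_mem_nhds hneg)
      simp only [out, decide_eq_false_iff_not]
      intro h2
      obtain ⟨n, hn1, hn2⟩ := (h1.and h2).exists
      have : 0 ≤ (∑ i ∈ Finset.range n, (2 * X (i, v) - 1)) / n := by positivity
      linarith
    · have hpos : 0 < eps * (2 * sg (σ v) - 1) / 3 := by rw [hσ]; norm_num [sg, eps]
      have h1 := hX.eventually (lt_mem_nhds hpos)
      simp only [out, decide_eq_true_eq]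
      filter_upwards [h1] with n hn
      by_contra h
      push Not at h
      have : (∑ i ∈ Finset.range n, (2 * X (i, v) - 1)) / n ≤ 0 :=
        div_nonpos_of_nonpos_of_nonneg h (Nat.cast_nonneg n)
      linarith
  filter_upwards [ae_all_iff.2 this] with X hX
  exact funext hX

end

end Crest.Agent.R168
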