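import Crest.Agent.R168.Core

/-!
Row 168: the one-dimensional observation channel.
-/

set_option autoImplicit false

open MeasureTheory Filter Topology

namespace Crest.Agent.R168

noncomputable section

/-- uniform law on `[0,1]` as a measure on `ℝ` -/
def lam0 : Measure ℝ := volume.restrict (Set.Icc 0 1)

instance : IsProbabilityMeasure lam0 := ⟨by simp [lam0]⟩

/-- value of a bit -/
def sg (b : Bool) : ℝ := if b then 1 else 0

lemma sg_nonneg (b : Bool) : 0 ≤ sg b := by cases b <;> simp [sg]
lemma sg_le_one (b : Bool) : sg b ≤ 1 := by cases b <;> simp [sg]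
lemma abs_sg_le (b : Bool) : |sg b| ≤ 1 := by cases b <;> simp [sg]
lemma measurable_sg : Measurable sg := measurable_of_countable _

/-- density of the observation when the bit has mean `s` -/
def dens (s x : ℝ) : ℝ := 1 + eps * (2 * s - 1) * (2 * cl x - 1)

lemma measurable_dens (s : ℝ) : Measurable (dens s) := by
  unfold dens
  have := measurable_cl
  fun_prop

lemma dens_bounds {s : ℝ} (h0 : 0 ≤ s) (h1 : s ≤ 1) (x : ℝ) : 1 / 2 ≤ dens s x ∧ dens s x ≤ 2 := by
  have hx0 := cl_nonneg x
  have hx1 := cl_le_one x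
  have : |(2 * s - 1) * (2 * cl x - 1)| ≤ 1 := by
    rw [abs_mul]
    exact mul_le_one₀ (abs_le.2 ⟨by linarith, by linarith⟩) (abs_nonneg _)
      (abs_le.2 ⟨by linarith, by linarith⟩)
  rw [abs_le] at this
  unfold dens eps
  constructor <;> nlinarith [this.1, this.2]

lemma dens_pos (b : Bool) (x : ℝ) : 0 < dens (sg b) x := by
  have := (dens_bounds (sg_nonneg b) (sg_le_one b) x).1
  linarith

lemma abs_dens_le (b : Bool) (x : ℝ) : |dens (sg b) x| ≤ 2 := by
  rw [abs_of_pos (dens_pos b x)]
  exact (dens_bounds (sg_nonneg b) (sg_le_one b) x).2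

lemma dens_eq_exp (b : Bool) (x : ℝ) : dens (sg b) x = dens 0 x * Real.exp (llr x * sg b) := by
  cases b
  · simp [sg]
  · have hx0 := cl_nonneg x
    have hx1 := cl_le_one x
    have h1 : 0 < 1 + eps * (2 * cl x - 1) := by unfold eps; linarith
    have h2 : 0 < 1 - eps * (2 * cl x - 1) := by unfold eps; linarith
    simp only [sg, if_true, mul_one, llr, Real.exp_sub, Real.exp_log h1, Real.exp_log h2, dens]
    have : 1 + eps * (2 * 0 - 1) * (2 * cl x - 1) = 1 - eps * (2 * cl x - 1) := by ring
    rw [this]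
    field_simp
    ring

/-- the distribution function of the mixture -/
def Fm (m x : ℝ) : ℝ := x - eps * (2 * m - 1) * (cl x * (1 - cl x))

lemma measurable_Fm : Measurable (fun p : ℝ × ℝ => Fm p.1 p.2) := by
  unfold Fm
  have := measurable_cl
  fun_prop

lemma integral_dens_Fm {m : ℝ} (h0 : 0 ≤ m) (h1 : m ≤ 1) (g : ℝ → ℝ) :
    ∫ x, dens m x * g (Fm m x) ∂lam0 = ∫ x, g x ∂lam0 := by
  set c : ℝ := eps * (2 * m - 1) with hc
  have hc1 : -(1 / 32) ≤ c := by rw [hc]; unfold eps; linarith
  have hc2 : c ≤ 1 / 32 := by rw [hc]; unfold eps; linarith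
  set f : ℝ → ℝ := fun x => x - c * (x * (1 - x)) with hf
  have hder : ∀ x, HasDerivAt f (1 + c * (2 * x - 1)) x := by
    intro x
    have := (hasDerivAt_id x).sub (((hasDerivAt_id x).mul
      ((hasDerivAt_const x (1 : ℝ)).sub (hasDerivAt_id x))).const_mul c)
    refine HasDerivAt.congr_deriv this ?_
    simp only [id, Pi.sub_apply]
    ring
  have hmono : StrictMonoOn f (Set.Icc 0 1) := by
    intro x hx y hy hxy
    simp only [hf]
    have : (y - c * (y * (1 - y))) - (x - c * (x * (1 - x))) = (y - x) * (1 + c * (x + y - 1)) := by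
      ring
    have h2 : 0 < 1 + c * (x + y - 1) := by
      have : |c * (x + y - 1)| ≤ 1 / 32 * 1 := by
        rw [abs_mul]
        exact mul_le_mul (abs_le.2 ⟨hc1, hc2⟩)
          (abs_le.2 ⟨by linarith [hx.1, hy.1], by linarith [hx.2, hy.2]⟩) (abs_nonneg _)
          (by norm_num)
      linarith [(abs_le.1 this).1]
    nlinarith [mul_pos (sub_pos.2 hxy) h2]
  have hcont : Continuous f := by rw [hf]; fun_prop
  have himg : f '' Set.Icc 0 1 = Set.Icc 0 1 := by
    have := hcont.continuousOn.image_Icc_of_monotoneOn zero_le_one hmono.monotoneOn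
    rw [this]
    simp [hf]
  have := integral_image_eq_integral_abs_deriv_smul (s := Set.Icc (0 : ℝ) 1) (f := f)
    (f' := fun x => 1 + c * (2 * x - 1)) measurableSet_Icc
    (fun x _ => (hder x).hasDerivWithinAt) hmono.injOn g
  rw [himg] at this
  unfold lam0
  rw [this]
  refine setIntegral_congr_fun measurableSet_Icc fun x hx => ?_
  have hd := (dens_bounds h0 h1 x).1
  simp only [dens, Fm, cl_of_mem hx.1 hx.2, smul_eq_mul] at hd ⊢
  rw [abs_of_nonneg (by rw [hc]; linarith)]

/-- law of one observation of the bit `b` -/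
def mu (b : Bool) : Measure ℝ := lam0.withDensity (fun x => ENNReal.ofReal (dens (sg b) x))

lemma integral_mu (b : Bool) (f : ℝ → ℝ) : ∫ x, f x ∂mu b = ∫ x, dens (sg b) x * f x ∂lam0 := by
  unfold mu
  rw [integral_withDensity_eq_integral_toReal_smul (measurable_dens _).ennreal_ofReal
    (ae_of_all _ fun x => ENNReal.ofReal_lt_top)]
  refine integral_congr_ae (ae_of_all _ fun x => ?_)
  simp [ENNReal.toReal_ofReal (dens_pos b x).le]

instance (b : Bool) : IsProbabilityMeasure (mu b) := by
  constructor
  have h1 : ∫ x, dens (sg b) x ∂lam0 = 1 := by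
    have := integral_dens_Fm (sg_nonneg b) (sg_le_one b) (fun _ => 1)
    simpa using this
  have hint : Integrable (dens (sg b)) lam0 :=
    Integrable.of_bound (measurable_dens _).aestronglyMeasurable 2
      (ae_of_all _ fun x => abs_dens_le b x)
  rw [mu, withDensity_apply _ MeasurableSet.univ, Measure.restrict_univ,
    ← ofReal_integral_eq_lintegral_ofReal hint (ae_of_all _ fun x => (dens_pos b x).le), h1]
  simp

lemma ae_mu_mem (b : Bool) : ∀ᵐ x ∂mu b, x ∈ Set.Icc (0 : ℝ) 1 :=
  (withDensity_absolutelyContinuous lam0 _).ae_le (ae_restrict_mem measurableSet_Icc)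

lemma integral_mu_mean (b : Bool) : ∫ x, (2 * x - 1) ∂mu b = eps * (2 * sg b - 1) / 3 := by
  rw [integral_mu]
  unfold lam0
  have : ∫ x in Set.Icc (0 : ℝ) 1, dens (sg b) x * (2 * x - 1) =
      ∫ x in Set.Icc (0 : ℝ) 1, ((eps * (2 * sg b - 1) * 4) * x ^ 2 +
        (2 - eps * (2 * sg b - 1) * 4) * x + (eps * (2 * sg b - 1) - 1)) := by
    refine setIntegral_congr_fun measurableSet_Icc fun x hx => ?_
    simp only [dens, cl_of_mem hx.1 hx.2]
    ring
  rw [this, integral_Icc_eq_integral_Ioc, ← intervalIntegral.integral_of_le zero_le_one,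
    intervalIntegral.integral_add (by apply Continuous.intervalIntegrable; fun_prop)
      (by apply Continuous.intervalIntegrable; fun_prop),
    intervalIntegral.integral_add (by apply Continuous.intervalIntegrable; fun_prop)
      (by apply Continuous.intervalIntegrable; fun_prop)]
  rw [intervalIntegral.integral_const_mul, intervalIntegral.integral_const_mul, integral_pow,
    integral_id, intervalIntegral.integral_const]
  simp
  ring

end

end Crest.Agent.R168
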