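import Mathlib

/-!
Row 168, core construction.  A deterministic map `Phi M r` from a field of "innovation" variables
`U : ℕ × I → ℝ` to a configuration `I → Bool`, built from a family of posterior-mean functions
`M v : (I → ℝ) → ℝ` and an order `r` on the sites.
-/

set_option autoImplicit false

open MeasureTheory Filter Topology

namespace Crest.Agent.R168

noncomputable section

variable {I : Type*}

/-- strength of one observation -/
def eps : ℝ := 1 / 32

/-- clamp to `[0,1]` -/
def cl (x : ℝ) : ℝ := max 0 (min x 1)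

/-- log-likelihood ratio of one observation -/
def llr (x : ℝ) : ℝ :=
  Real.log (1 + eps * (2 * cl x - 1)) - Real.log (1 - eps * (2 * cl x - 1))

open Classical in
/-- the external field produced by the observations made before observation `a` -/
def field (r : I → I → Prop) (X : ℕ × I → ℝ) (a : ℕ × I) : I → ℝ :=
  fun u => ∑ j ∈ Finset.range a.1, llr (X (j, u)) + if r u a.2 then llr (X (a.1, u)) else 0

/-- the drift term -/
def drift (M : I → (I → ℝ) → ℝ) (r : I → I → Prop) (X : ℕ × I → ℝ) (a : ℕ × I) : ℝ :=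
  eps * (2 * M a.2 (field r X a) - 1) * (cl (X a) * (1 - cl (X a)))

/-- one Picard step -/
def step (M : I → (I → ℝ) → ℝ) (r : I → I → Prop) (U X : ℕ × I → ℝ) : ℕ × I → ℝ :=
  fun a => U a + drift M r X a

/-- the innovation variables -/
def innov (M : I → (I → ℝ) → ℝ) (r : I → I → Prop) (X : ℕ × I → ℝ) : ℕ × I → ℝ :=
  fun a => X a - drift M r X a

/-- Picard iterates -/
def iter (M : I → (I → ℝ) → ℝ) (r : I → I → Prop) (U : ℕ × I → ℝ) : ℕ → ℕ × I → ℝ
  | 0 => fun _ => 0
  | n + 1 => step M r U (iter M r U n)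

/-- limit of the Picard iterates -/
def fix (M : I → (I → ℝ) → ℝ) (r : I → I → Prop) (U : ℕ × I → ℝ) : ℕ × I → ℝ :=
  fun a => limsup (fun n => iter M r U n a) atTop

open Classical in
/-- read off the configuration from the observations -/
def out (X : ℕ × I → ℝ) : I → Bool :=
  fun v => decide (∀ᶠ n : ℕ in atTop, 0 < ∑ k ∈ Finset.range n, (2 * X (k, v) - 1))

/-- the factor map -/
def Phi (M : I → (I → ℝ) → ℝ) (r : I → I → Prop) (U : ℕ × I → ℝ) : I → Bool :=
  out (fix M r U)

/-! ### elementary facts -/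

lemma cl_nonneg (x : ℝ) : 0 ≤ cl x := le_max_left _ _

lemma cl_le_one (x : ℝ) : cl x ≤ 1 := max_le zero_le_one (min_le_right _ _)

lemma cl_of_mem {x : ℝ} (h0 : 0 ≤ x) (h1 : x ≤ 1) : cl x = x := by
  simp [cl, min_eq_left h1, max_eq_right h0]

lemma abs_cl_sub_le (x y : ℝ) : |cl x - cl y| ≤ |x - y| := by
  unfold cl
  refine (abs_max_sub_max_le_max 0 (min x 1) 0 (min y 1)).trans ?_
  refine max_le (by simp) ?_
  refine (abs_min_sub_min_le_max x 1 y 1).trans ?_
  simp

lemma continuous_cl : Continuous cl := by unfold cl; fun_prop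

lemma measurable_cl : Measurable cl := continuous_cl.measurable

lemma measurable_llr : Measurable llr := by
  unfold llr
  have := measurable_cl
  fun_prop

lemma abs_log_sub_le {a b : ℝ} (ha : 1 / 2 ≤ a) (hb : 1 / 2 ≤ b) :
    |Real.log a - Real.log b| ≤ 2 * |a - b| := by
  have key : ∀ a b : ℝ, 1 / 2 ≤ a → 1 / 2 ≤ b → Real.log a - Real.log b ≤ 2 * |a - b| := by
    intro a b ha hb
    have hb0 : 0 < b := by linarith
    have ha0 : 0 < a := by linarith
    rw [← Real.log_div ha0.ne' hb0.ne']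
    have h1 := Real.log_le_sub_one_of_pos (div_pos ha0 hb0)
    have h2 : a / b - 1 = (a - b) / b := by field_simp
    rw [h2] at h1
    refine h1.trans ?_
    rw [div_le_iff₀ hb0]
    have := le_abs_self (a - b)
    have := abs_nonneg (a - b)
    nlinarith
  rw [abs_le]
  constructor
  · have := key b a hb ha
    rw [abs_sub_comm] at this
    linarith
  · exact key a b ha hb

lemma abs_llr_sub_le (x y : ℝ) : |llr x - llr y| ≤ (1 / 4) * |x - y| := by
  have hx0 := cl_nonneg x
  have hx1 := cl_le_one x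
  have hy0 := cl_nonneg y
  have hy1 := cl_le_one y
  have h := abs_cl_sub_le x y
  have h1 := abs_log_sub_le (a := 1 + eps * (2 * cl x - 1)) (b := 1 + eps * (2 * cl y - 1))
    (by unfold eps; linarith) (by unfold eps; linarith)
  have h2 := abs_log_sub_le (a := 1 - eps * (2 * cl x - 1)) (b := 1 - eps * (2 * cl y - 1))
    (by unfold eps; linarith) (by unfold eps; linarith)
  have e1 : |1 + eps * (2 * cl x - 1) - (1 + eps * (2 * cl y - 1))| = (1 / 16) * |cl x - cl y| := by
    rw [show 1 + eps * (2 * cl x - 1) - (1 + eps * (2 * cl y - 1)) = (1 / 16) * (cl x - cl y) by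
      unfold eps; ring, abs_mul]
    norm_num
  have e2 : |1 - eps * (2 * cl x - 1) - (1 - eps * (2 * cl y - 1))| = (1 / 16) * |cl x - cl y| := by
    rw [show 1 - eps * (2 * cl x - 1) - (1 - eps * (2 * cl y - 1)) = (1 / 16) * (cl y - cl x) by
      unfold eps; ring, abs_mul, abs_sub_comm]
    norm_num
  rw [e1] at h1
  rw [e2] at h2
  unfold llr
  have h3 := abs_sub (Real.log (1 + eps * (2 * cl x - 1)) - Real.log (1 + eps * (2 * cl y - 1)))
    (Real.log (1 - eps * (2 * cl x - 1)) - Real.log (1 - eps * (2 * cl y - 1)))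
  have e3 : Real.log (1 + eps * (2 * cl x - 1)) - Real.log (1 - eps * (2 * cl x - 1)) -
      (Real.log (1 + eps * (2 * cl y - 1)) - Real.log (1 - eps * (2 * cl y - 1))) =
      Real.log (1 + eps * (2 * cl x - 1)) - Real.log (1 + eps * (2 * cl y - 1)) -
      (Real.log (1 - eps * (2 * cl x - 1)) - Real.log (1 - eps * (2 * cl y - 1))) := by ring
  rw [e3]
  linarith

/-! ### naturality -/

section naturality

variable {J : Type*} (ι : J → I) {M : I → (I → ℝ) → ℝ} {M' : J → (J → ℝ) → ℝ}
  {r : I → I → Prop} {r' : J → J → Prop}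

lemma field_nat (hr : ∀ u v, r' u v ↔ r (ι u) (ι v)) (X : ℕ × I → ℝ) (a : ℕ × J) :
    field r' (fun b => X (b.1, ι b.2)) a = field r X (a.1, ι a.2) ∘ ι := by
  funext u
  simp only [field, Function.comp]
  by_cases h : r' u a.2
  · rw [if_pos h, if_pos ((hr _ _).1 h)]
  · rw [if_neg h, if_neg (fun h' => h ((hr _ _).2 h'))]

lemma iter_nat (hM : ∀ v y, M (ι v) y = M' v (y ∘ ι)) (hr : ∀ u v, r' u v ↔ r (ι u) (ι v))
    (U : ℕ × I → ℝ) (n : ℕ) :
    iter M' r' (fun b => U (b.1, ι b.2)) n = fun b => iter M r U n (b.1, ι b.2) := by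
  induction n with
  | zero => rfl
  | succ n ih =>
    funext a
    simp only [iter, step, drift, ih, field_nat ι hr, hM]

lemma Phi_nat (hM : ∀ v y, M (ι v) y = M' v (y ∘ ι)) (hr : ∀ u v, r' u v ↔ r (ι u) (ι v))
    (U : ℕ × I → ℝ) :
    Phi M' r' (fun b => U (b.1, ι b.2)) = Phi M r U ∘ ι := by
  have : fix M' r' (fun b => U (b.1, ι b.2)) = fun b => fix M r U (b.1, ι b.2) := by
    funext b
    unfold fix
    congr 1
    funext n
    rw [iter_nat ι hM hr]
  unfold Phi
  rw [this]
  rfl

end naturality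

/-! ### measurability -/

section measurability

variable {P : Type*} [MeasurableSpace P] {M : P → I → (I → ℝ) → ℝ} {r : P → I → I → Prop}

lemma measurable_field (hr : ∀ u v, MeasurableSet {p | r p u v}) {X : P → ℕ × I → ℝ}
    (hX : Measurable X) (a : ℕ × I) : Measurable (fun p => field (r p) (X p) a) := by
  refine measurable_pi_lambda _ fun u => ?_
  unfold field
  refine Measurable.add (Finset.measurable_sum _ fun j _ => ?_) ?_
  · exact measurable_llr.comp ((measurable_pi_apply _).comp hX)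
  · exact Measurable.ite (hr u a.2) (measurable_llr.comp ((measurable_pi_apply _).comp hX))
      measurable_const

lemma measurable_drift (hM : ∀ v, Measurable (fun q : P × (I → ℝ) => M q.1 v q.2))
    (hr : ∀ u v, MeasurableSet {p | r p u v}) {X : P → ℕ × I → ℝ}
    (hX : Measurable X) (a : ℕ × I) : Measurable (fun p => drift (M p) (r p) (X p) a) := by
  unfold drift
  have h1 : Measurable (fun p => M p a.2 (field (r p) (X p) a)) :=
    (hM a.2).comp (measurable_id.prodMk (measurable_field hr hX a))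
  have h2 : Measurable (fun p => cl (X p a)) :=
    measurable_cl.comp ((measurable_pi_apply _).comp hX)
  exact (measurable_const.mul ((measurable_const.mul h1).sub measurable_const)).mul
    (h2.mul (measurable_const.sub h2))

lemma measurable_iter (hM : ∀ v, Measurable (fun q : P × (I → ℝ) => M q.1 v q.2))
    (hr : ∀ u v, MeasurableSet {p | r p u v}) {U : P → ℕ × I → ℝ} (hU : Measurable U) (n : ℕ) :
    Measurable (fun p => iter (M p) (r p) (U p) n) := by
  induction n with
  | zero => exact measurable_const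
  | succ n ih =>
    refine measurable_pi_lambda _ fun a => ?_
    exact ((measurable_pi_apply _).comp hU).add (measurable_drift hM hr ih a)

lemma measurable_out : Measurable (out : (ℕ × I → ℝ) → I → Bool) := by
  refine measurable_pi_lambda _ fun v => ?_
  refine measurable_to_bool ?_
  have : (fun X : ℕ × I → ℝ => out X v) ⁻¹' {true} =
      {X | ∀ᶠ n : ℕ in atTop, 0 < ∑ k ∈ Finset.range n, (2 * X (k, v) - 1)} := by
    ext X; simp [out]
  rw [this]
  simp only [eventually_atTop, Set.ofPred_exists, Set.ofPred_forall]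
  refine MeasurableSet.iUnion fun a => MeasurableSet.iInter fun b => MeasurableSet.iInter fun _ => ?_
  exact measurableSet_lt measurable_const (by fun_prop)

lemma measurable_Phi (hM : ∀ v, Measurable (fun q : P × (I → ℝ) => M q.1 v q.2))
    (hr : ∀ u v, MeasurableSet {p | r p u v}) {U : P → ℕ × I → ℝ} (hU : Measurable U) :
    Measurable (fun p => Phi (M p) (r p) (U p)) := by
  refine measurable_out.comp ?_
  refine measurable_pi_lambda _ fun a => ?_
  exact Measurable.limsup fun n => (measurable_pi_apply _).comp (measurable_iter hM hr hU n)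

end measurability

/-! ### contraction -/

section contraction

variable {M : I → (I → ℝ) → ℝ} {r : I → I → Prop}

/-- the Lipschitz property of the posterior means -/
def IsLip (M : I → (I → ℝ) → ℝ) : Prop :=
  ∀ v (y y' : I → ℝ) (D : ℝ), (∀ u, |y u - y' u| ≤ D) → |M v y - M v y'| ≤ 30 * D

lemma abs_field_sub_le {X X' : ℕ × I → ℝ} {C : ℝ} (hC : 0 ≤ C)
    (h : ∀ a : ℕ × I, |X a - X' a| ≤ C * 2 ^ a.1) (a : ℕ × I) (u : I) :
    |field r X a u - field r X' a u| ≤ C * 2 ^ a.1 / 2 := by
  classical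
  unfold field
  have h1 : ∀ j, |llr (X (j, u)) - llr (X' (j, u))| ≤ (1 / 4) * (C * 2 ^ j) := fun j =>
    (abs_llr_sub_le _ _).trans (by have := h (j, u); simp only at this; linarith)
  have h2 : |∑ j ∈ Finset.range a.1, llr (X (j, u)) - ∑ j ∈ Finset.range a.1, llr (X' (j, u))|
      ≤ (1 / 4) * (C * 2 ^ a.1) := by
    rw [← Finset.sum_sub_distrib]
    refine (Finset.abs_sum_le_sum_abs _ _).trans ((Finset.sum_le_sum fun j _ => h1 j).trans ?_)
    rw [← Finset.mul_sum, ← Finset.mul_sum]
    have : ∑ j ∈ Finset.range a.1, (2 : ℝ) ^ j ≤ 2 ^ a.1 := by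
      rw [geom_sum_eq (by norm_num)]; norm_num
    gcongr
  have h3 : |(if r u a.2 then llr (X (a.1, u)) else 0) - (if r u a.2 then llr (X' (a.1, u)) else 0)|
      ≤ (1 / 4) * (C * 2 ^ a.1) := by
    split_ifs
    · exact h1 a.1
    · simp only [sub_zero, abs_zero]; positivity
  have := abs_add_le
    (∑ j ∈ Finset.range a.1, llr (X (j, u)) - ∑ j ∈ Finset.range a.1, llr (X' (j, u)))
    ((if r u a.2 then llr (X (a.1, u)) else 0) - (if r u a.2 then llr (X' (a.1, u)) else 0))
  have e : ∑ j ∈ Finset.range a.1, llr (X (j, u)) + (if r u a.2 then llr (X (a.1, u)) else 0) -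
      (∑ j ∈ Finset.range a.1, llr (X' (j, u)) + (if r u a.2 then llr (X' (a.1, u)) else 0)) =
      (∑ j ∈ Finset.range a.1, llr (X (j, u)) - ∑ j ∈ Finset.range a.1, llr (X' (j, u))) +
      ((if r u a.2 then llr (X (a.1, u)) else 0) - (if r u a.2 then llr (X' (a.1, u)) else 0)) := by
    ring
  rw [e]
  linarith

lemma abs_drift_sub_le (hL : IsLip M) (h0 : ∀ v y, 0 ≤ M v y) (h1 : ∀ v y, M v y ≤ 1)
    {X X' : ℕ × I → ℝ} {C : ℝ} (hC : 0 ≤ C)
    (h : ∀ a : ℕ × I, |X a - X' a| ≤ C * 2 ^ a.1) (a : ℕ × I) :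
    |drift M r X a - drift M r X' a| ≤ C / 2 * 2 ^ a.1 := by
  have hm := hL a.2 _ _ _ (abs_field_sub_le (r := r) hC h a)
  have hx := (abs_cl_sub_le (X a) (X' a)).trans (h a)
  unfold drift
  set m := M a.2 (field r X a)
  set m' := M a.2 (field r X' a)
  set c := cl (X a)
  set c' := cl (X' a)
  set B := C * 2 ^ a.1 with hB
  have hc0 : 0 ≤ c := cl_nonneg _
  have hc1 : c ≤ 1 := cl_le_one _
  have hc0' : 0 ≤ c' := cl_nonneg _
  have hc1' : c' ≤ 1 := cl_le_one _
  have hm0 : 0 ≤ m' := h0 _ _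
  have hm1 : m' ≤ 1 := h1 _ _
  have e : eps * (2 * m - 1) * (c * (1 - c)) - eps * (2 * m' - 1) * (c' * (1 - c')) =
      eps * (2 * ((m - m') * (c * (1 - c))) + (2 * m' - 1) * ((c - c') * (1 - c - c'))) := by ring
  rw [e, abs_mul]
  have a1 : |(m - m') * (c * (1 - c))| ≤ 30 * (B / 2) * (1 / 4) := by
    rw [abs_mul]
    refine mul_le_mul hm ?_ (abs_nonneg _) ((abs_nonneg _).trans hm)
    rw [abs_of_nonneg (mul_nonneg hc0 (by linarith))]
    nlinarith [sq_nonneg (c - 1 / 2)]
  have a2 : |(2 * m' - 1) * ((c - c') * (1 - c - c'))| ≤ 1 * (B * 1) := by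
    rw [abs_mul, abs_mul]
    refine mul_le_mul (abs_le.2 ⟨by linarith, by linarith⟩)
      (mul_le_mul hx (abs_le.2 ⟨by linarith, by linarith⟩) (abs_nonneg _)
        ((abs_nonneg _).trans hx)) (by positivity) zero_le_one
  have a3 := abs_add_le (2 * ((m - m') * (c * (1 - c)))) ((2 * m' - 1) * ((c - c') * (1 - c - c')))
  rw [abs_mul 2, abs_two] at a3
  have hB0 : 0 ≤ B := (abs_nonneg _).trans hx
  have he : |eps| = 1 / 32 := by unfold eps; norm_num
  rw [he, show C / 2 * 2 ^ a.1 = B / 2 by rw [hB]; ring]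
  linarith

lemma abs_iter_innov_sub_le (hL : IsLip M) (h0 : ∀ v y, 0 ≤ M v y) (h1 : ∀ v y, M v y ≤ 1)
    {X : ℕ × I → ℝ} (hX : ∀ a, |X a| ≤ 1) (n : ℕ) (a : ℕ × I) :
    |iter M r (innov M r X) n a - X a| ≤ (1 / 2) ^ n * 2 ^ a.1 := by
  induction n generalizing a with
  | zero =>
    simp only [iter, zero_sub, abs_neg, pow_zero, one_mul]
    exact (hX a).trans (one_le_pow₀ (by norm_num))
  | succ n ih =>
    have := abs_drift_sub_le (r := r) hL h0 h1 (C := (1 / 2) ^ n) (by positivity) ih a
    simp only [iter, step, innov]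
    rw [show X a - drift M r X a + drift M r (iter M r (innov M r X) n) a - X a =
      drift M r (iter M r (innov M r X) n) a - drift M r X a by ring]
    refine this.trans (le_of_eq ?_)
    ring

lemma fix_innov (hL : IsLip M) (h0 : ∀ v y, 0 ≤ M v y) (h1 : ∀ v y, M v y ≤ 1)
    {X : ℕ × I → ℝ} (hX : ∀ a, |X a| ≤ 1) : fix M r (innov M r X) = X := by
  funext a
  refine Tendsto.limsup_eq ?_
  rw [tendsto_iff_norm_sub_tendsto_zero]
  refine squeeze_zero (fun n => norm_nonneg _)
    (fun n => abs_iter_innov_sub_le (r := r) hL h0 h1 hX n a) ?_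
  have := (tendsto_pow_atTop_nhds_zero_of_lt_one (r := (1 / 2 : ℝ)) (by norm_num)
    (by norm_num)).mul_const ((2 : ℝ) ^ a.1)
  simpa using this

lemma Phi_innov (hL : IsLip M) (h0 : ∀ v y, 0 ≤ M v y) (h1 : ∀ v y, M v y ≤ 1)
    {X : ℕ × I → ℝ} (hX : ∀ a, |X a| ≤ 1) : Phi M r (innov M r X) = out X := by
  rw [Phi, fix_innov hL h0 h1 hX]

end contraction

end

end Crest.Agent.R168
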