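import Crest.Agent.R168.Innov
import Crest.Prelude.Def_Labels

/-!
Row 168: splitting the labels.
-/

set_option autoImplicit false

open MeasureTheory Filter Topology ProbabilityTheory

namespace Crest.Agent.R168

noncomputable section

open Crest.ProbabilityR.Labels

lemma exists_split (W : Type) [Countable W] : ∃ f : unitInterval → Bool × W → ℝ, Measurable f ∧
    ∀ V : Type*, (labelMeasure V).map (fun x => (fun p : V × W => f (x p.1) (true, p.2),
      fun p : V × W => f (x p.1) (false, p.2))) =
      (Measure.infinitePi fun _ : V × W => lam0).prod (Measure.infinitePi fun _ : V × W => lam0) := by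
  obtain ⟨f, hf, hf'⟩ := Measure.exists_measurable_map_eq
    (Measure.infinitePi fun _ : Bool × W => lam0)
  refine ⟨f, hf, fun V => ?_⟩
  have h1 := Measure.infinitePi_map_pi (fun _ : V => (volume : Measure unitInterval))
    (f := fun _ => f) (fun _ => hf)
  simp only [hf'] at h1
  have h2 := Measure.infinitePi_map_curry_symm (fun (_ : V) (_ : Bool × W) => lam0)
  have h3 := Measure.map_infinitePi_infinitePi_of_inj
    (P := fun _ : V × (Bool × W) => lam0)
    (f := fun q : Bool × (V × W) => (q.2.1, (q.1, q.2.2))) (by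
      rintro ⟨a, b, c⟩ ⟨a', b', c'⟩ h
      simp only [Prod.mk.injEq] at h ⊢
      tauto)
  have h4 := Measure.infinitePi_map_curry (fun (_ : Bool) (_ : V × W) => lam0)
  have h5 := Measure.infinitePi_map_eval_prod
    (P := fun _ : Bool => Measure.infinitePi fun _ : V × W => lam0) (i := true) (j := false)
    (by simp)
  rw [← h5, ← h4, ← h3, ← h2, ← h1, Measure.map_map, Measure.map_map, Measure.map_map,
    Measure.map_map]
  · rfl
  all_goals fun_prop

lemma ae_injective (K : Type*) [Countable K] :
    ∀ᵐ T ∂(Measure.infinitePi fun _ : K => lam0), Function.Injective T := by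
  have : ∀ i j : K, ∀ᵐ T ∂(Measure.infinitePi fun _ : K => lam0), T i = T j → i = j := by
    intro i j
    by_cases hij : i = j
    · exact ae_of_all _ fun _ _ => hij
    have h1 := Measure.infinitePi_map_eval_prod (P := fun _ : K => lam0) hij
    have hm : MeasurableSet {p : ℝ × ℝ | p.1 = p.2} := measurableSet_eq_fun measurable_fst
      measurable_snd
    have h2 : (lam0.prod lam0) {p : ℝ × ℝ | p.1 = p.2} = 0 := by
      rw [Measure.prod_apply hm]
      have : ∀ x : ℝ, lam0 (Prod.mk x ⁻¹' {p : ℝ × ℝ | p.1 = p.2}) = 0 := by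
        intro x
        have : Prod.mk x ⁻¹' {p : ℝ × ℝ | p.1 = p.2} = {x} := by
          ext y; simp [eq_comm]
        rw [this, lam0]
        exact measure_singleton x
      simp only [this, lintegral_zero]
    rw [← h1, Measure.map_apply (by fun_prop) hm] at h2
    have h3 : ∀ᵐ T ∂(Measure.infinitePi fun _ : K => lam0), ¬ T i = T j := by
      rw [ae_iff]
      simpa using h2
    filter_upwards [h3] with T hT h using absurd h hT
  filter_upwards [ae_all_iff.2 fun i => ae_all_iff.2 (this i)] with T hT
  exact fun i j h => hT i j h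

lemma map_prod_eq_of_ae {A B C : Type*} [MeasurableSpace A] [MeasurableSpace B] [MeasurableSpace C]
    {μ : Measure A} [IsProbabilityMeasure μ] {ρ : Measure B} [SFinite ρ] {ν : Measure C}
    {Ψ : A × B → C} (hΨ : Measurable Ψ) (h : ∀ᵐ a ∂μ, ρ.map (fun b => Ψ (a, b)) = ν) :
    (μ.prod ρ).map Ψ = ν := by
  ext s hs
  rw [Measure.map_apply hΨ hs, Measure.prod_apply (hΨ hs)]
  have : ∀ᵐ a ∂μ, ρ (Prod.mk a ⁻¹' (Ψ ⁻¹' s)) = ν s := by
    filter_upwards [h] with a ha
    have hm : Measurable (fun b => Ψ (a, b)) := hΨ.comp measurable_prodMk_left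
    rw [← ha, Measure.map_apply hm hs]
    rfl
  rw [lintegral_congr_ae this]
  simp

lemma isSTO_of_injective {I L : Type*} [LinearOrder L] {T : I → L} (hT : Function.Injective T) :
    IsStrictTotalOrder I (fun u v => T u < T v) where
  trichotomous _ _ h1 h2 := hT (le_antisymm (not_lt.1 h2) (not_lt.1 h1))
  irrefl _ := lt_irrefl _
  trans _ _ _ := lt_trans

end

end Crest.Agent.R168
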