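import Crest.Agent.R168.GraphM
import Crest.Agent.R168.Labels

/-!
Row 168: edge labels from vertex labels.
-/

set_option autoImplicit false

open SimpleGraph MeasureTheory Filter Topology

namespace Crest.Agent.R168

noncomputable section

open Classical

variable {V : Type*}

/-- larger label on a pair -/
def mx (t : V → ℝ) : Sym2 V → ℝ := Sym2.lift ⟨fun a b => max (t a) (t b), fun _ _ => max_comm _ _⟩

/-- smaller label on a pair -/
def mn (t : V → ℝ) : Sym2 V → ℝ := Sym2.lift ⟨fun a b => min (t a) (t b), fun _ _ => min_comm _ _⟩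

/-- order on the pairs -/
def rE (t : V → ℝ) (u v : Sym2 V) : Prop :=
  mx t u < mx t v ∨ (mx t u = mx t v ∧ mn t u < mn t v)

/-- rank of `b` among the neighbours of `a` -/
def rank (G : SimpleGraph V) (t : V → ℝ) (a b : V) : ℕ := Set.ncard {c | G.Adj a c ∧ t c < t b}

/-- labels of the pairs -/
def lab (G : SimpleGraph V) (t : V → ℝ) (U : V × (ℕ × ℕ) → ℝ) (q : ℕ × Sym2 V) : ℝ :=
  Sym2.lift ⟨fun a b => if t b < t a then U (a, (rank G t a b, q.1))
      else if t a < t b then U (b, (rank G t b a, q.1)) else 0, fun a b => by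
    by_cases h1 : t b < t a
    · simp only [if_pos h1, if_neg (lt_asymm h1)]
    · by_cases h2 : t a < t b
      · simp only [if_neg h1, if_pos h2]
      · simp only [if_neg h1, if_neg h2]⟩ q.2

lemma lab_mk (G : SimpleGraph V) (t : V → ℝ) (U : V × (ℕ × ℕ) → ℝ) (k : ℕ) (a b : V) :
    lab G t U (k, s(a, b)) = if t b < t a then U (a, (rank G t a b, k))
      else if t a < t b then U (b, (rank G t b a, k)) else 0 := rfl

lemma mx_map (σ : V → V) (t : V → ℝ) (e : Sym2 V) : mx (t ∘ σ) e = mx t (Sym2.map σ e) := by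
  induction e using Sym2.ind with
  | h a b => rfl

lemma mn_map (σ : V → V) (t : V → ℝ) (e : Sym2 V) : mn (t ∘ σ) e = mn t (Sym2.map σ e) := by
  induction e using Sym2.ind with
  | h a b => rfl

lemma rE_map (σ : V → V) (t : V → ℝ) (u v : Sym2 V) :
    rE (t ∘ σ) u v ↔ rE t (Sym2.map σ u) (Sym2.map σ v) := by
  simp only [rE, mx_map, mn_map]

lemma rank_comap (σ : V ≃ V) (G : SimpleGraph V) (t : V → ℝ) (a b : V) :
    rank (G.comap σ) (t ∘ σ) a b = rank G t (σ a) (σ b) := by
  unfold rank
  rw [← Set.ncard_image_of_injective _ σ.injective]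
  congr 1
  ext c
  simp only [comap_adj, Function.comp, Set.mem_image, Set.mem_ofPred_eq]
  constructor
  · rintro ⟨x, h, rfl⟩; exact h
  · intro h; exact ⟨σ.symm c, by simpa using h, by simp⟩

lemma lab_comap (σ : V ≃ V) (G : SimpleGraph V) (t : V → ℝ) (U : V × (ℕ × ℕ) → ℝ) :
    lab (G.comap σ) (t ∘ σ) (fun p => U (σ p.1, p.2)) =
      fun b => lab G t U (b.1, Sym2.map σ b.2) := by
  funext ⟨k, e⟩
  induction e using Sym2.ind with
  | h a b => simp only [Sym2.map_mk, lab_mk, rank_comap, Function.comp]

/-- the factor map on the level of split labels -/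
def PhiG (G : SimpleGraph V) (t : V → ℝ) (U : V × (ℕ × ℕ) → ℝ) : Sym2 V → Bool :=
  Phi (MG G) (rE t) (lab G t U)

lemma PhiG_comap (σ : V ≃ V) (G : SimpleGraph V) (t : V → ℝ) (U : V × (ℕ × ℕ) → ℝ) :
    PhiG (G.comap σ) (t ∘ σ) (fun p => U (σ p.1, p.2)) = PhiG G t U ∘ Sym2.map σ := by
  rw [PhiG, lab_comap]
  exact Phi_nat (Sym2.map σ) (MG_comap σ G) (rE_map σ t) _

section measurability

variable [Countable V] {P : Type*} [MeasurableSpace P] {G : P → SimpleGraph V} {t : P → V → ℝ}
  {U : P → V × (ℕ × ℕ) → ℝ}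

omit [Countable V] in
lemma measurableSet_rE (ht : Measurable t) (u v : Sym2 V) : MeasurableSet {p | rE (t p) u v} := by
  have h1 : ∀ e : Sym2 V, Measurable (fun p => mx (t p) e) := by
    intro e
    induction e using Sym2.ind with
    | h a b => exact ((measurable_pi_apply a).comp ht).max ((measurable_pi_apply b).comp ht)
  have h2 : ∀ e : Sym2 V, Measurable (fun p => mn (t p) e) := by
    intro e
    induction e using Sym2.ind with
    | h a b => exact ((measurable_pi_apply a).comp ht).min ((measurable_pi_apply b).comp ht)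
  exact (measurableSet_lt (h1 u) (h1 v)).union
    ((measurableSet_eq_fun (h1 u) (h1 v)).inter (measurableSet_lt (h2 u) (h2 v)))

lemma measurable_rank (hG : ∀ u v, MeasurableSet {p | (G p).Adj u v}) (ht : Measurable t)
    (a b : V) : Measurable (fun p => rank (G p) (t p) a b) := by
  refine measurable_ncard.comp (measurable_set_iff.2 fun c => ?_)
  refine measurableSet_setOfPred.1 ((hG a c).inter ?_)
  exact measurableSet_lt ((measurable_pi_apply c).comp ht) ((measurable_pi_apply b).comp ht)

lemma measurable_lab (hG : ∀ u v, MeasurableSet {p | (G p).Adj u v}) (ht : Measurable t)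
    (hU : Measurable U) : Measurable (fun p => lab (G p) (t p) (U p)) := by
  refine measurable_pi_lambda _ fun ⟨k, e⟩ => ?_
  have key : ∀ a b : V, Measurable (fun p => U p (a, (rank (G p) (t p) a b, k))) := by
    intro a b
    have h1 : Measurable (fun q : P × ℕ => U q.1 (a, (q.2, k))) :=
      measurable_from_prod_countable_left fun n => (measurable_pi_apply (a, (n, k))).comp hU
    exact h1.comp (measurable_id.prodMk (measurable_rank hG ht a b))
  induction e using Sym2.ind with
  | h a b =>
    simp only [lab_mk]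
    exact Measurable.ite
      (measurableSet_lt ((measurable_pi_apply b).comp ht) ((measurable_pi_apply a).comp ht))
      (key a b) (Measurable.ite
        (measurableSet_lt ((measurable_pi_apply a).comp ht) ((measurable_pi_apply b).comp ht))
        (key b a) measurable_const)

lemma measurable_PhiG (hG : ∀ u v, MeasurableSet {p | (G p).Adj u v}) (ht : Measurable t)
    (hU : Measurable U) : Measurable (fun p => PhiG (G p) (t p) (U p)) :=
  measurable_Phi (M := fun p => MG (G p)) (fun e =>
    measurable_MG (G := fun q : P × (Sym2 V → ℝ) => G q.1)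
      (fun u v => measurable_fst (hG u v)) measurable_snd e)
    (measurableSet_rE ht) (measurable_lab hG ht hU)

end measurability

lemma isSTO_rE {t : V → ℝ} (ht : Function.Injective t) {J : Type*} {ι : J → Sym2 V}
    (hι : Function.Injective ι) : IsStrictTotalOrder J (fun u v => rE t (ι u) (ι v)) := by
  have hinj : Function.Injective (fun e : Sym2 V => toLex (mx t e, mn t e)) := by
    intro e e' h
    induction e using Sym2.ind with
    | h a b =>
    induction e' using Sym2.ind with
    | h c d =>
    have h := toLex.injective h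
    simp only [Prod.mk.injEq, mx, mn, Sym2.lift_mk] at h
    rw [Sym2.eq_iff]
    rcases le_total (t a) (t b) with h1 | h1 <;> rcases le_total (t c) (t d) with h2 | h2 <;>
      simp only [max_eq_left, max_eq_right, min_eq_left, min_eq_right, h1, h2] at h
    · exact Or.inl ⟨ht h.2, ht h.1⟩
    · exact Or.inr ⟨ht h.2, ht h.1⟩
    · exact Or.inr ⟨ht h.1, ht h.2⟩
    · exact Or.inl ⟨ht h.1, ht h.2⟩
  have := isSTO_of_injective (hinj.comp hι)
  convert this using 3
  simp [rE, Prod.Lex.toLex_lt_toLex]

lemma rank_injOn {G : SimpleGraph V} (hG : ∀ v, (G.neighborSet v).Finite) {t : V → ℝ}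
    (ht : Function.Injective t) {a b b' : V} (hb : G.Adj a b) (hb' : G.Adj a b')
    (h : rank G t a b = rank G t a b') : b = b' := by
  have key : ∀ b b', G.Adj a b → t b < t b' → rank G t a b < rank G t a b' := by
    intro b b' hb hlt
    refine Set.ncard_lt_ncard ⟨fun c hc => ⟨hc.1, hc.2.trans hlt⟩, fun hsub => ?_⟩
      ((hG a).subset fun c hc => hc.1)
    exact lt_irrefl _ (hsub (show b ∈ {c | G.Adj a c ∧ t c < t b'} from ⟨hb, hlt⟩)).2
  rcases lt_trichotomy (t b) (t b') with h1 | h1 | h1
  · exact absurd h (key b b' hb h1).ne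
  · exact ht h1
  · exact absurd h (key b' b hb' h1).ne'

lemma map_lab [Countable V] {G : SimpleGraph V} (hG : ∀ v, (G.neighborSet v).Finite) {t : V → ℝ}
    (ht : Function.Injective t) :
    (Measure.infinitePi fun _ : V × (ℕ × ℕ) => lam0).map
      (fun U (b : ℕ × G.edgeSet) => lab G t U (b.1, b.2)) =
      Measure.infinitePi fun _ : ℕ × G.edgeSet => lam0 := by
  have h : ∀ e : G.edgeSet, ∃ a b, (e : Sym2 V) = s(a, b) ∧ G.Adj a b ∧ t b < t a := by
    rintro ⟨e, he⟩
    induction e using Sym2.ind with
    | h a b =>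
    have hab : G.Adj a b := he
    rcases lt_trichotomy (t a) (t b) with h1 | h1 | h1
    · exact ⟨b, a, Sym2.eq_swap, hab.symm, h1⟩
    · exact absurd (ht h1) hab.ne
    · exact ⟨a, b, rfl, hab, h1⟩
  choose a b h1 h2 h3 using h
  have hinj : Function.Injective
      (fun q : ℕ × G.edgeSet => (a q.2, (rank G t (a q.2) (b q.2), q.1))) := by
    rintro ⟨k, e⟩ ⟨k', e'⟩ h
    simp only [Prod.mk.injEq] at h ⊢
    refine ⟨h.2.2, Subtype.ext ?_⟩
    have h4 := h.2.1
    have h5 := h2 e'
    rw [← h.1] at h4 h5
    rw [h1 e, h1 e', ← h.1, rank_injOn hG ht (h2 e) h5 h4]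
  rw [← Measure.map_infinitePi_infinitePi_of_inj (P := fun _ : V × (ℕ × ℕ) => lam0) hinj]
  congr 1
  funext U q
  rw [h1 q.2, lab_mk, if_pos (h3 q.2)]

lemma map_PhiG [Countable V] {G : SimpleGraph V} (hG : ∀ v, (G.neighborSet v).Finite)
    {ν : Measure (G.edgeSet → Bool)} [IsProbabilityMeasure ν] (hν : IsPost ν (ME G))
    {t : V → ℝ} (ht : Function.Injective t) :
    (Measure.infinitePi fun _ : V × (ℕ × ℕ) => lam0).map
      (fun U => PhiG G t U ∘ (Subtype.val : G.edgeSet → Sym2 V)) = ν := by
  have := isSTO_rE ht (ι := (Subtype.val : G.edgeSet → Sym2 V)) Subtype.val_injective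
  have hm : Measurable (fun U (b : ℕ × G.edgeSet) => lab G t U (b.1, b.2)) :=
    measurable_pi_lambda _ fun b => (measurable_pi_apply (b.1, (b.2 : Sym2 V))).comp
      (measurable_lab (P := V × (ℕ × ℕ) → ℝ) (G := fun _ => G) (t := fun _ => t) (U := id)
        (fun _ _ => MeasurableSet.const _) measurable_const measurable_id)
  rw [← map_Phi hν (isLip_ME hG) (fun u v => rE t u v), ← map_lab hG ht,
    Measure.map_map (hν.measurable_Phi _) hm]
  congr 1
  funext U
  exact (Phi_nat (Subtype.val : G.edgeSet → Sym2 V) (MG_eq_ME G) (fun _ _ => Iff.rfl) _).symm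

end

end Crest.Agent.R168
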