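import Crest.Agent.R168.Posterior

/-!
Row 168: the innovation variables are independent uniform, hence `Phi` has the right law.
-/

set_option autoImplicit false

open MeasureTheory Filter Topology ProbabilityTheory

namespace Crest.Agent.R168

noncomputable section

variable {I : Type*}

/-- `M` is a version of the posterior means of `ν` -/
def IsPost (ν : Measure (I → Bool)) (M : I → (I → ℝ) → ℝ) : Prop :=
  ∀ v, ∃ F : ℕ → Finset I, Monotone F ∧ (∀ u, ∃ n, u ∈ F n) ∧
    ∀ y, M v y = limsup (fun n => tilt ν v (F n) y) atTop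

lemma limsup_mem_unit {f : ℕ → ℝ} (h0 : ∀ n, 0 ≤ f n) (h1 : ∀ n, f n ≤ 1) :
    0 ≤ limsup f atTop ∧ limsup f atTop ≤ 1 := by
  constructor
  · exact le_limsup_of_frequently_le (Frequently.of_forall h0) (isBoundedUnder_of ⟨1, h1⟩)
  · exact limsup_le_of_le (isCoboundedUnder_le_of_le atTop h0) (Eventually.of_forall h1)

lemma abs_limsup_sub_le {f g : ℕ → ℝ} (h0 : ∀ n, 0 ≤ f n) (h1 : ∀ n, f n ≤ 1)
    (h0' : ∀ n, 0 ≤ g n) (h1' : ∀ n, g n ≤ 1) {D : ℝ} (h : ∀ n, |f n - g n| ≤ D) :
    |limsup f atTop - limsup g atTop| ≤ D := by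
  have key : ∀ f g : ℕ → ℝ, (∀ n, 0 ≤ f n) → (∀ n, 0 ≤ g n) → (∀ n, g n ≤ 1) →
      (∀ n, f n ≤ g n + D) → limsup f atTop ≤ limsup g atTop + D := by
    intro f g h0 h0' h1' h
    rw [← limsup_add_const atTop g D (isBoundedUnder_of ⟨1, h1'⟩)
      (isCoboundedUnder_le_of_le atTop h0')]
    exact limsup_le_limsup (Eventually.of_forall h) (isCoboundedUnder_le_of_le atTop h0)
      (isBoundedUnder_of ⟨1 + D, fun n => by have := h1' n; linarith⟩)
  rw [abs_le]
  constructor
  · have := key g f h0' h0 h1 fun n => by have := (abs_le.1 (h n)).1; linarith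
    linarith
  · have := key f g h0 h0' h1' fun n => by have := (abs_le.1 (h n)).2; linarith
    linarith

variable {ν : Measure (I → Bool)} [IsProbabilityMeasure ν] {M : I → (I → ℝ) → ℝ}

lemma IsPost.nonneg (h : IsPost ν M) (v : I) (y : I → ℝ) : 0 ≤ M v y := by
  obtain ⟨F, -, -, hF⟩ := h v
  rw [hF]
  exact (limsup_mem_unit (fun n => tilt_nonneg ν v _ y) (fun n => tilt_le_one ν v _ y)).1

lemma IsPost.le_one (h : IsPost ν M) (v : I) (y : I → ℝ) : M v y ≤ 1 := by
  obtain ⟨F, -, -, hF⟩ := h v
  rw [hF]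
  exact (limsup_mem_unit (fun n => tilt_nonneg ν v _ y) (fun n => tilt_le_one ν v _ y)).2

lemma IsPost.measurable (h : IsPost ν M) (v : I) : Measurable (M v) := by
  obtain ⟨F, -, -, hF⟩ := h v
  rw [show M v = fun y => limsup (fun n => tilt ν v (F n) y) atTop from funext hF]
  exact Measurable.limsup fun n => measurable_tilt ν v _

lemma innov_eq (r : I → I → Prop) (X : ℕ × I → ℝ) (a : ℕ × I) :
    innov M r X a = Fm (M a.2 (field r X a)) (X a) := rfl

lemma IsPost.measurable_innov (h : IsPost ν M) (r : I → I → Prop) : Measurable (innov M r) := by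
  refine measurable_pi_lambda _ fun a => ?_
  have h1 : Measurable (fun X : ℕ × I → ℝ => (M a.2 (field r X a), X a)) :=
    ((h.measurable a.2).comp (measurable_field' r a)).prodMk (measurable_pi_apply a)
  exact measurable_Fm.comp h1

lemma innov_step (h : IsPost ν M) (r : I → I → Prop) (hirr : ∀ v, ¬ r v v) (a : ℕ × I)
    {g : (ℕ × I → ℝ) → ℝ} (hg : Measurable g)
    (hC : ∀ x, |g x| ≤ 1) (hdep : ∀ X X', (∀ b, prec r b a → X b = X' b) → g X = g X')
    {t : Set ℝ} (ht : MeasurableSet t) :
    ∫ ω, g ω.2 * t.indicator 1 (innov M r ω.2 a) ∂(ν ⊗ₘ obsKernel I) =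
      (∫ ω, g ω.2 ∂(ν ⊗ₘ obsKernel I)) * lam0.real t := by
  classical
  have hind : Measurable (t.indicator (1 : ℝ → ℝ)) := measurable_one.indicator ht
  have hind1 : ∀ x, |t.indicator (1 : ℝ → ℝ) x| ≤ 1 := fun x => by
    by_cases hx : x ∈ t <;> simp [hx]
  have hna : ¬ prec r a a := by
    rintro (h' | h')
    · exact lt_irrefl _ h'
    · exact hirr _ h'.2
  have hupd : ∀ (X : ℕ × I → ℝ) (s : ℝ) (b : ℕ × I), prec r b a → Function.update X a s b = X b :=
    fun X s b hb => Function.update_of_ne (by rintro rfl; exact hna hb) _ _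
  -- the two coefficient functions
  set φ₀ : ℝ → ℝ := fun m => ∫ s, dens 0 s * t.indicator 1 (Fm m s) ∂lam0 with hφ₀
  set φ₁ : ℝ → ℝ := fun m => ∫ s, (2 * eps * (2 * cl s - 1)) * t.indicator 1 (Fm m s) ∂lam0
    with hφ₁
  have hb1 : ∀ s, |2 * eps * (2 * cl s - 1)| ≤ 1 := fun s => by
    have := cl_nonneg s
    have := cl_le_one s
    rw [abs_le]; unfold eps; constructor <;> linarith
  have hm1 : Measurable (fun s => 2 * eps * (2 * cl s - 1)) := by
    have := measurable_cl
    fun_prop
  have hb0 : ∀ s, |dens 0 s| ≤ 2 := abs_dens_le false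
  have hφ : ∀ m c, ∫ s, dens c s * t.indicator 1 (Fm m s) ∂lam0 = φ₀ m + φ₁ m * c := by
    intro m c
    have hF : Measurable (Fm m) := measurable_Fm.comp (measurable_const.prodMk measurable_id)
    rw [hφ₀, hφ₁]
    simp only
    rw [← integral_mul_const, ← integral_add]
    · refine integral_congr_ae (ae_of_all _ fun s => ?_)
      simp only [dens]
      ring
    · refine integrable_of_bdd ((measurable_dens 0).mul (hind.comp hF)) (C := 2) fun s => ?_
      rw [abs_mul]
      exact (mul_le_of_le_one_right (abs_nonneg _) (hind1 _)).trans (hb0 s)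
    · refine Integrable.mul_const (integrable_of_bdd (hm1.mul (hind.comp hF)) (C := 1) fun s => ?_) _
      rw [Pi.mul_apply, abs_mul]
      exact (mul_le_of_le_one_right (abs_nonneg _) (hind1 _)).trans (hb1 s)
  have hφ₀m : Measurable φ₀ :=
    (StronglyMeasurable.integral_prod_right' (ν := lam0)
      (f := fun p : ℝ × ℝ => dens 0 p.2 * t.indicator 1 (Fm p.1 p.2))
      (((measurable_dens 0).comp measurable_snd).mul
        (hind.comp measurable_Fm)).stronglyMeasurable).measurable
  have hφ₁m : Measurable φ₁ :=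
    (StronglyMeasurable.integral_prod_right' (ν := lam0)
      (f := fun p : ℝ × ℝ => (2 * eps * (2 * cl p.2 - 1)) * t.indicator 1 (Fm p.1 p.2))
      ((hm1.comp measurable_snd).mul
        (hind.comp measurable_Fm)).stronglyMeasurable).measurable
  have hφ₀b : ∀ m, |φ₀ m| ≤ 2 := fun m => by
    have := norm_integral_le_of_norm_le_const (μ := lam0)
      (f := fun s => dens 0 s * t.indicator 1 (Fm m s)) (C := 2) (ae_of_all _ fun s => by
        rw [Real.norm_eq_abs, abs_mul]
        exact (mul_le_of_le_one_right (abs_nonneg _) (hind1 _)).trans (hb0 s))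
    simpa using this
  have hφ₁b : ∀ m, |φ₁ m| ≤ 1 := fun m => by
    have := norm_integral_le_of_norm_le_const (μ := lam0)
      (f := fun s => (2 * eps * (2 * cl s - 1)) * t.indicator 1 (Fm m s)) (C := 1)
      (ae_of_all _ fun s => by
        rw [Real.norm_eq_abs, abs_mul]
        exact (mul_le_of_le_one_right (abs_nonneg _) (hind1 _)).trans (hb1 s))
    simpa using this
  set m : (ℕ × I → ℝ) → ℝ := fun X => M a.2 (field r X a) with hm
  have hmm : Measurable m := (h.measurable a.2).comp (measurable_field' r a)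
  have hmdep : ∀ X X', (∀ b, prec r b a → X b = X' b) → m X = m X' := fun X X' hX => by
    simp only [hm, field_congr r a hX]
  have hia : Measurable (fun X => innov M r X a) :=
    (measurable_pi_apply a).comp (h.measurable_innov r)
  have hG : Measurable (fun X => g X * t.indicator 1 (innov M r X a)) := hg.mul (hind.comp hia)
  have hGb : ∀ X, |g X * t.indicator 1 (innov M r X a)| ≤ 1 := fun X => by
    rw [abs_mul]
    exact mul_le_one₀ (hC _) (abs_nonneg _) (hind1 _)
  have hA : Measurable (fun X => g X * φ₀ (m X)) := hg.mul (hφ₀m.comp hmm)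
  have hB : Measurable (fun X => g X * φ₁ (m X)) := hg.mul (hφ₁m.comp hmm)
  have hAb : ∀ X, |g X * φ₀ (m X)| ≤ 2 := fun X => by
    rw [abs_mul]
    exact (mul_le_of_le_one_left (abs_nonneg _) (hC _)).trans (hφ₀b _)
  have hBb : ∀ X, |g X * φ₁ (m X)| ≤ 1 := fun X => by
    rw [abs_mul]
    exact mul_le_one₀ (hC _) (abs_nonneg _) (hφ₁b _)
  have i1 : Integrable (fun ω : (I → Bool) × (ℕ × I → ℝ) => g ω.2 * φ₀ (m ω.2))
      (ν ⊗ₘ obsKernel I) := integrable_of_bdd (hA.comp measurable_snd) fun ω => hAb _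
  have i2 : Integrable (fun ω : (I → Bool) × (ℕ × I → ℝ) => g ω.2 * φ₁ (m ω.2) * sg (ω.1 a.2))
      (ν ⊗ₘ obsKernel I) :=
    integrable_of_bdd ((hB.comp measurable_snd).mul ((measurable_sg_apply a.2).comp measurable_fst))
      (C := 1) fun ω => by
        rw [abs_mul]
        exact mul_le_one₀ (hBb _) (abs_nonneg _) (abs_sg_le _)
  have i3 : Integrable (fun ω : (I → Bool) × (ℕ × I → ℝ) => g ω.2 * φ₁ (m ω.2) * m ω.2)
      (ν ⊗ₘ obsKernel I) :=
    integrable_of_bdd ((hB.mul hmm).comp measurable_snd) (C := 1) fun ω => by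
        rw [abs_mul]
        refine mul_le_one₀ (hBb _) (abs_nonneg _) ?_
        rw [abs_of_nonneg (h.nonneg _ _)]
        exact h.le_one _ _
  have e1 : ∫ ω, g ω.2 * t.indicator 1 (innov M r ω.2 a) ∂(ν ⊗ₘ obsKernel I) =
      ∫ ω, (g ω.2 * φ₀ (m ω.2) + g ω.2 * φ₁ (m ω.2) * sg (ω.1 a.2)) ∂(ν ⊗ₘ obsKernel I) := by
    have i0 : Integrable (fun ω : (I → Bool) × (ℕ × I → ℝ) =>
        g ω.2 * t.indicator 1 (innov M r ω.2 a)) (ν ⊗ₘ obsKernel I) :=
      integrable_of_bdd (hG.comp measurable_snd) fun ω => hGb _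
    have i4 : Integrable (fun ω : (I → Bool) × (ℕ × I → ℝ) =>
        g ω.2 * φ₀ (m ω.2) + g ω.2 * φ₁ (m ω.2) * sg (ω.1 a.2)) (ν ⊗ₘ obsKernel I) := i1.add i2
    rw [Measure.integral_compProd i0, Measure.integral_compProd i4]
    refine integral_congr_ae (ae_of_all _ fun σ => ?_)
    simp only
    rw [obsKernel_apply, integral_update_infinitePi _ a hG hGb]
    refine integral_congr_ae (ae_of_all _ fun X => ?_)
    simp only
    have : ∀ s, g (Function.update X a s) * t.indicator 1 (innov M r (Function.update X a s) a) =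
        g X * t.indicator 1 (Fm (m X) s) := by
      intro s
      rw [hdep _ X (hupd X s), innov_eq, Function.update_self]
      congr 3
      exact hmdep _ X (hupd X s)
    simp only [this]
    rw [integral_const_mul, integral_mu, hφ]
    ring
  obtain ⟨F, hF1, hF2, hF3⟩ := h a.2
  have e2 := posterior ν r a a.2 F hF1 hF2 hB hBb (fun X X' hX => by
    rw [hdep X X' hX, hmdep X X' hX])
  simp only [← hF3] at e2
  rw [e1, integral_add i1 i2, e2, ← integral_add i1 i3, ← integral_mul_const]
  refine integral_congr_ae (ae_of_all _ fun ω => ?_)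
  simp only
  have h1 := hφ (m ω.2) (m ω.2)
  rw [integral_dens_Fm (h.nonneg _ _) (h.le_one _ _), integral_indicator_one ht] at h1
  rw [h1]
  ring

lemma map_innov (h : IsPost ν M) (r : I → I → Prop) [hr : IsStrictTotalOrder I r] :
    (ν ⊗ₘ obsKernel I).map (fun ω => innov M r ω.2) =
      Measure.infinitePi (fun _ : ℕ × I => lam0) := by
  classical
  have hmeas : Measurable (fun ω : (I → Bool) × (ℕ × I → ℝ) => innov M r ω.2) :=
    (h.measurable_innov r).comp measurable_snd
  have hirr : ∀ v, ¬ r v v := fun v => irrefl_of r v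
  have htrans : ∀ a b c, prec r a b → prec r b c → prec r a c := by
    rintro a b c (h1 | h1) (h2 | h2)
    · exact Or.inl (h1.trans h2)
    · exact Or.inl (h2.1 ▸ h1)
    · exact Or.inl (h1.1 ▸ h2)
    · exact Or.inr ⟨h1.1.trans h2.1, trans_of r h1.2 h2.2⟩
  have hsto : IsStrictTotalOrder (ℕ × I) (prec r) :=
    { trichotomous := by
        intro a b h1 h2
        have h3 : a.1 = b.1 := by
          by_contra h3
          rcases lt_or_gt_of_ne h3 with h4 | h4
          · exact h1 (Or.inl h4)
          · exact h2 (Or.inl h4)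
        refine Prod.ext h3 ?_
        rcases trichotomous_of r a.2 b.2 with h4 | h4 | h4
        · exact absurd (Or.inr ⟨h3, h4⟩) h1
        · exact h4
        · exact absurd (Or.inr ⟨h3.symm, h4⟩) h2
      irrefl := by
        rintro a (h' | h')
        · exact lt_irrefl _ h'
        · exact hirr _ h'.2
      trans := htrans }
  refine Measure.eq_infinitePi _ fun s t ht => ?_
  have key : ∫ ω, ∏ b ∈ s, (t b).indicator (1 : ℝ → ℝ) (innov M r ω.2 b) ∂(ν ⊗ₘ obsKernel I) =
      ∏ b ∈ s, lam0.real (t b) := by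
    let _ : LinearOrder (ℕ × I) := linearOrderOfSTO (prec r)
    induction s using Finset.induction_on_max with
    | empty => simp
    | insert a s hs ih =>
      have ha : a ∉ s := fun h' => lt_irrefl a (hs a h')
      simp only [Finset.prod_insert ha]
      rw [← ih, mul_comm, ← innov_step h r hirr a
        (g := fun X => ∏ b ∈ s, (t b).indicator (1 : ℝ → ℝ) (innov M r X b)) ?_ ?_ ?_ (ht a)]
      · simp only [mul_comm]
      · exact Finset.measurable_prod _ fun b _ => (measurable_one.indicator (ht b)).comp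
          ((measurable_pi_apply b).comp (h.measurable_innov r))
      · intro X
        rw [Finset.abs_prod]
        refine Finset.prod_le_one (fun _ _ => abs_nonneg _) fun b _ => ?_
        by_cases hx : innov M r X b ∈ t b <;> simp [hx]
      · intro X X' hX
        refine Finset.prod_congr rfl fun b hb => ?_
        have hba : prec r b a := hs b hb
        rw [innov_eq, innov_eq, hX b hba,
          field_congr r b fun c hc => hX c (htrans _ _ _ hc hba)]
  have hms : MeasurableSet ((s : Set (ℕ × I)).pi t) := .pi s.countable_toSet fun _ _ => ht _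
  rw [Measure.map_apply hmeas hms, ← ofReal_measureReal, ← integral_indicator_one (hmeas hms)]
  have : ((fun ω : (I → Bool) × (ℕ × I → ℝ) => innov M r ω.2) ⁻¹' (s : Set (ℕ × I)).pi t).indicator
      (1 : (I → Bool) × (ℕ × I → ℝ) → ℝ) = fun ω => ∏ b ∈ s, (t b).indicator (1 : ℝ → ℝ) (innov M r ω.2 b) := by
    funext ω
    by_cases hω : ω ∈ (fun ω : (I → Bool) × (ℕ × I → ℝ) => innov M r ω.2) ⁻¹' (s : Set (ℕ × I)).pi t
    · rw [Set.indicator_of_mem hω]
      refine (Finset.prod_eq_one fun b hb => ?_).symm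
      exact Set.indicator_of_mem (hω b hb) _
    · rw [Set.indicator_of_notMem hω]
      simp only [Set.mem_preimage, Set.mem_pi, Finset.mem_coe, not_forall] at hω
      obtain ⟨b, hb, hb'⟩ := hω
      exact (Finset.prod_eq_zero hb (Set.indicator_of_notMem hb' _)).symm
  rw [this, key, ENNReal.ofReal_prod_of_nonneg (fun _ _ => measureReal_nonneg)]
  simp only [ofReal_measureReal (measure_ne_top _ _)]

lemma IsPost.measurable_Phi (h : IsPost ν M) (r : I → I → Prop) : Measurable (Phi M r) :=
  Crest.Agent.R168.measurable_Phi (P := ℕ × I → ℝ) (M := fun _ => M) (r := fun _ => r) (U := id)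
    (fun v => (h.measurable v).comp measurable_snd) (fun _ _ => MeasurableSet.const _) measurable_id

/-- Main abstract theorem. -/
theorem map_Phi [Countable I] (h : IsPost ν M) (hL : IsLip M) (r : I → I → Prop)
    [IsStrictTotalOrder I r] :
    (Measure.infinitePi (fun _ : ℕ × I => lam0)).map (Phi M r) = ν := by
  have hmeas : Measurable (fun ω : (I → Bool) × (ℕ × I → ℝ) => innov M r ω.2) :=
    (h.measurable_innov r).comp measurable_snd
  rw [← map_innov h r, Measure.map_map (h.measurable_Phi r) hmeas]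
  conv_rhs => rw [← Measure.fst_compProd ν (obsKernel I)]
  refine Measure.map_congr ?_
  refine Measure.ae_compProd_of_ae_ae ?_ (ae_of_all _ fun σ => ?_)
  · exact measurableSet_eq_fun ((h.measurable_Phi r).comp hmeas) measurable_fst
  · filter_upwards [ae_obs_abs_le σ, ae_obs_out σ] with X h1 h2
    simp only [Function.comp]
    rw [Phi_innov hL h.nonneg h.le_one h1, h2]

end

end Crest.Agent.R168
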