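import Crest.Agent.R168.Tree
import Crest.Agent.R168.Innov
import Crest.Prelude.Def_SpanningTrees

/-!
Row 168: existence of the free uniform spanning forest as a weak limit.
-/

set_option autoImplicit false

open SimpleGraph MeasureTheory Filter Topology

namespace Crest.Agent.R168

noncomputable section

open Classical Crest.ProbabilityR.SpanningTrees

variable {V : Type*}

lemma mem_edgesIn {G : SimpleGraph V} {S : Finset V} {f : Sym2 V} :
    f ∈ edgesIn G S ↔ f ∈ G.edgeSet ∧ ∀ v ∈ f, v ∈ S := by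
  simp only [edgesIn, Finset.mem_filter, Finset.mem_sym2_iff]
  exact and_comm

lemma adm_edgesIn (G : SimpleGraph V) (S : Finset V) : Adm (S : Set V) (edgesIn G S) := by
  intro x y h
  rw [mem_edgesIn] at h
  exact ⟨(G.mem_edgeSet.1 h.1).ne, h.2 x (by simp), h.2 y (by simp)⟩

lemma edgesIn_mono (G : SimpleGraph V) {S S' : Finset V} (h : S ⊆ S') :
    edgesIn G S ⊆ edgesIn G S' := fun _ hf =>
  mem_edgesIn.2 ⟨(mem_edgesIn.1 hf).1, fun v hv => h ((mem_edgesIn.1 hf).2 v hv)⟩

lemma reachable_induce {H : SimpleGraph V} {S : Set V} (hH : ∀ x y, H.Adj x y → y ∈ S)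
    {x y : V} (hx : x ∈ S) (h : H.Reachable x y) :
    ∃ hy : y ∈ S, (H.induce S).Reachable ⟨x, hx⟩ ⟨y, hy⟩ := by
  rw [reachable_iff_reflTransGen] at h
  induction h with
  | refl => exact ⟨hx, Reachable.refl _⟩
  | tail _ hbc ih =>
    obtain ⟨hb, hr⟩ := ih
    exact ⟨hH _ _ hbc, hr.trans (Adj.reachable (by simpa using hbc))⟩

lemma isTree_induce_iff {H : SimpleGraph V} {S : Set V} (hH : ∀ x y, H.Adj x y → y ∈ S)
    (hS : S.Nonempty) :
    (H.induce S).IsTree ↔ H.IsAcyclic ∧ ∀ x ∈ S, ∀ y ∈ S, H.Reachable x y := by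
  constructor
  · intro h
    constructor
    · rw [isAcyclic_iff_forall_adj_isBridge]
      intro x y hxy
      have hx := hH _ _ hxy.symm
      have hy := hH _ _ hxy
      have h1 := isAcyclic_iff_forall_adj_isBridge.1 h.isAcyclic
        (show (H.induce S).Adj ⟨x, hx⟩ ⟨y, hy⟩ by simpa using hxy)
      rw [isBridge_iff] at h1 ⊢
      intro h2
      obtain ⟨_, h3⟩ := reachable_induce (S := S)
        (fun u v huv => hH u v (deleteEdges_adj.1 huv).1) hx h2
      refine h1 (h3.mono fun u v huv => ?_)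
      simp only [comap_adj, Function.Embedding.subtype_apply, deleteEdges_adj,
        Set.mem_singleton_iff] at huv ⊢
      refine ⟨huv.1, fun h4 => huv.2 ?_⟩
      have := congrArg (Sym2.map Subtype.val) h4
      simpa using this
    · intro x hx y hy
      exact (h.connected.preconnected ⟨x, hx⟩ ⟨y, hy⟩).map (Embedding.induce S).toHom
  · rintro ⟨h1, h2⟩
    have : Nonempty S := hS.to_subtype
    refine ⟨⟨fun x y => ?_⟩, h1.induce S⟩
    exact (reachable_induce hH x.2 (h2 x x.2 y y.2)).2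

lemma isSpanningTreeOn_iff {G : SimpleGraph V} {S : Finset V} (hS : S.Nonempty)
    {A : Finset (Sym2 V)} (hA : A ⊆ edgesIn G S) : IsSpanningTreeOn G S A ↔ ST (S : Set V) A := by
  rw [IsSpanningTreeOn, and_iff_right hA]
  exact isTree_induce_iff (H := gr A)
    (fun x y h => (adm_edgesIn G S x y (hA (gr_adj.1 h).1)).2.2) hS

lemma exists_tree {G : SimpleGraph V} {S : Finset V} (h : (G.induce (S : Set V)).Connected) :
    ∃ T ⊆ edgesIn G S, ST (S : Set V) T := by
  obtain ⟨F, hF1, hF2, hF3⟩ := (gr (edgesIn G S)).exists_isAcyclic_reachable_eq_le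
  have hgr : gr ((edgesIn G S).filter (· ∈ F.edgeSet)) = F := by
    ext x y
    rw [gr_adj, Finset.mem_filter, mem_edgeSet]
    exact ⟨fun h => h.1.2, fun h => ⟨⟨(gr_adj.1 (hF1 h)).1, h⟩, h.ne⟩⟩
  refine ⟨(edgesIn G S).filter (· ∈ F.edgeSet), Finset.filter_subset _ _, ?_⟩
  rw [ST, hgr, hF3]
  refine ⟨hF2, fun x hx y hy => ?_⟩
  let φ : G.induce (S : Set V) →g gr (edgesIn G S) :=
    ⟨Subtype.val, fun {u v} huv => gr_adj.2 ⟨mem_edgesIn.2 ⟨huv, by
      intro w hw
      rcases Sym2.mem_iff.1 hw with rfl | rfl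
      · exact u.2
      · exact v.2⟩, G.ne_of_adj huv⟩⟩
  exact (h.preconnected ⟨x, hx⟩ ⟨y, hy⟩).map φ

/-- expectation under the uniform spanning tree of the piece `S` -/
def ustE (G : SimpleGraph V) (S : Finset V) (φ : Finset (Sym2 V) → ℝ) : ℝ :=
  (∑ T ∈ (edgesIn G S).powerset, if ST (S : Set V) T then φ T else 0) /
    tau (S : Set V) (edgesIn G S) (dbl ∅)

lemma tau_dbl_empty (S : Set V) (E : Finset (Sym2 V)) :
    tau S E (dbl ∅) = ∑ T ∈ E.powerset, if ST S T then 1 else 0 := by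
  simp [tau, dbl]

lemma ustContains_eq {G : SimpleGraph V} {S : Finset V} (hS : S.Nonempty) (F : Finset (Sym2 V)) :
    ustContains G S F = ustE G S (fun T => if F ⊆ T then 1 else 0) := by
  rw [ustContains, ustE, tau_dbl_empty, Finset.card_filter, Finset.card_filter]
  push_cast
  congr 1
  · refine Finset.sum_congr rfl fun T hT => ?_
    rw [← isSpanningTreeOn_iff hS (Finset.mem_powerset.1 hT)]
    by_cases h1 : IsSpanningTreeOn G S T <;> by_cases h2 : F ⊆ T <;> simp [h1, h2]
  · refine Finset.sum_congr rfl fun T hT => ?_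
    rw [← isSpanningTreeOn_iff hS (Finset.mem_powerset.1 hT)]

lemma ustE_sum {ι : Type*} (G : SimpleGraph V) (S : Finset V) (s : Finset ι) (w : ι → ℝ)
    (φ : ι → Finset (Sym2 V) → ℝ) :
    ustE G S (fun T => ∑ i ∈ s, w i * φ i T) = ∑ i ∈ s, w i * ustE G S (φ i) := by
  simp only [ustE, ← mul_div_assoc, ← Finset.sum_div, Finset.mul_sum]
  congr 1
  rw [Finset.sum_comm]
  refine Finset.sum_congr rfl fun T _ => ?_
  split_ifs <;> simp

/-- exhaustion by finite connected pieces -/
def Exh (G : SimpleGraph V) (S : ℕ → Finset V) : Prop :=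
  Monotone S ∧ (∀ v, ∃ n, v ∈ S n) ∧ ∀ n, (G.induce (S n : Set V)).Connected

lemma Exh.eventually_subset {G : SimpleGraph V} {S : ℕ → Finset V} (h : Exh G S) (B : Finset V) :
    ∀ᶠ n in atTop, B ⊆ S n := by
  have : ∀ v ∈ B, ∀ᶠ n in atTop, v ∈ S n := by
    intro v _
    obtain ⟨n, hn⟩ := h.2.1 v
    filter_upwards [eventually_ge_atTop n] with m hm using h.1 hm hn
  filter_upwards [(Finset.eventually_all B).2 this] with n hn using fun v hv => hn v hv

lemma Exh.eventually_edges {G : SimpleGraph V} {S : ℕ → Finset V} (h : Exh G S)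
    {A : Finset (Sym2 V)} (hA : ∀ f ∈ A, f ∈ G.edgeSet) : ∀ᶠ n in atTop, A ⊆ edgesIn G (S n) := by
  filter_upwards [h.eventually_subset (A.biUnion fun f => f.toFinset)] with n hn f hf
  exact mem_edgesIn.2 ⟨hA f hf, fun v hv =>
    hn (Finset.mem_biUnion.2 ⟨f, hf, Sym2.mem_toFinset.2 hv⟩)⟩

lemma tendsto_dbl (G : SimpleGraph V) {A : Finset (Sym2 V)} (hA : ∀ f ∈ A, f ∈ G.edgeSet) :
    ∃ L : ℝ, ∀ S, Exh G S →
      Tendsto (fun n => ustE G (S n) (fun T => ∏ f ∈ T, dbl A f)) atTop (𝓝 L) := by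
  set g : Finset V → ℝ := fun S => ustE G S (fun T => ∏ f ∈ T, dbl A f) with hg
  set 𝒮 : Set (Finset V) := {S | (G.induce (S : Set V)).Connected ∧ A ⊆ edgesIn G S} with h𝒮
  have hanti : ∀ S ∈ 𝒮, ∀ S', (G.induce ((S' : Finset V) : Set V)).Connected → S ⊆ S' →
      g S' ≤ g S := fun S hS S' hS' hSS =>
    tau_dbl_anti (adm_edgesIn G S) (adm_edgesIn G S') hSS (edgesIn_mono G hSS)
      (exists_tree hS.1) (exists_tree hS') hS.2
  have hbdd : BddBelow (g '' 𝒮) := by
    refine ⟨0, ?_⟩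
    rintro _ ⟨S, hS, rfl⟩
    exact (div_pos (tau_pos (exists_tree hS.1) (dbl_pos A))
      (tau_pos (exists_tree hS.1) (dbl_pos _))).le
  refine ⟨sInf (g '' 𝒮), fun S hS => ?_⟩
  have hev : ∀ᶠ n in atTop, S n ∈ 𝒮 := by
    filter_upwards [hS.eventually_edges hA] with n hn using ⟨hS.2.2 n, hn⟩
  rw [tendsto_order]
  constructor
  · intro a ha
    filter_upwards [hev] with n hn
    exact ha.trans_le (csInf_le hbdd ⟨S n, hn, rfl⟩)
  · intro a ha
    obtain ⟨n, hn⟩ := hev.exists
    obtain ⟨_, ⟨B, hB, rfl⟩, hBa⟩ := exists_lt_of_csInf_lt (s := g '' 𝒮) ⟨_, S n, hn, rfl⟩ ha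
    filter_upwards [hS.eventually_subset B] with m hm
    exact (hanti B hB (S m) (hS.2.2 m) hm).trans_lt hBa

lemma tendsto_prod (G : SimpleGraph V) (F : Finset G.edgeSet) (α β : G.edgeSet → ℝ) :
    ∃ L : ℝ, ∀ S, Exh G S → Tendsto (fun n => ustE G (S n)
      (fun T => ∏ f ∈ F, (α f + β f * if (f : Sym2 V) ∈ T then 1 else 0))) atTop (𝓝 L) := by
  have h := fun A : Finset G.edgeSet => tendsto_dbl G (A := A.map (Function.Embedding.subtype _))
    (fun f hf => by
      obtain ⟨f', _, rfl⟩ := Finset.mem_map.1 hf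
      exact f'.2)
  choose L hL using h
  refine ⟨∑ A ∈ F.powerset, ((∏ f ∈ A, β f) * ∏ f ∈ F \ A, (α f - β f)) * L A, fun S hS => ?_⟩
  have : (fun T : Finset (Sym2 V) => ∏ f ∈ F, (α f + β f * if (f : Sym2 V) ∈ T then 1 else 0)) =
      fun T => ∑ A ∈ F.powerset, ((∏ f ∈ A, β f) * ∏ f ∈ F \ A, (α f - β f)) *
        ∏ f ∈ T, dbl (A.map (Function.Embedding.subtype _)) f := by
    funext T
    have e1 : ∀ f : G.edgeSet, (α f + β f * if (f : Sym2 V) ∈ T then 1 else 0) =
        β f * dbl T f + (α f - β f) := by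
      intro f; unfold dbl; split_ifs <;> ring
    simp only [e1]
    rw [Finset.prod_add]
    refine Finset.sum_congr rfl fun A _ => ?_
    have e2 : ∏ f ∈ T, dbl (A.map (Function.Embedding.subtype _)) f = ∏ f ∈ A, dbl T f := by
      have := Finset.prod_map A (Function.Embedding.subtype (· ∈ G.edgeSet)) (dbl T)
      simp only [Function.Embedding.subtype_apply] at this
      rw [← this]
      unfold dbl
      rw [Finset.prod_ite_mem, Finset.prod_ite_mem, Finset.inter_comm]
    rw [e2, Finset.prod_mul_distrib]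
    ring
  simp only [this, ustE_sum]
  exact tendsto_finsetSum _ fun A _ => (hL A S hS).const_mul _

/-- indicator configuration of an edge set -/
def indic (G : SimpleGraph V) (T : Finset (Sym2 V)) : G.edgeSet → Bool :=
  fun f => decide ((f : Sym2 V) ∈ T)

lemma sg_indic (G : SimpleGraph V) (T : Finset (Sym2 V)) (f : G.edgeSet) :
    sg (indic G T f) = if (f : Sym2 V) ∈ T then 1 else 0 := by
  unfold indic sg
  by_cases h : (f : Sym2 V) ∈ T <;> simp [h]

/-- the law of the uniform spanning tree of the piece `S` -/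
def ustMeasure (G : SimpleGraph V) (S : Finset V) : Measure (G.edgeSet → Bool) :=
  ∑ T ∈ (edgesIn G S).powerset, ENNReal.ofReal ((if ST (S : Set V) T then 1 else 0) /
    tau (S : Set V) (edgesIn G S) (dbl ∅)) • Measure.dirac (indic G T)

lemma integral_ustMeasure [Countable V] {G : SimpleGraph V} {S : Finset V}
    (h : (G.induce (S : Set V)).Connected) (φ : (G.edgeSet → Bool) → ℝ) :
    ∫ ω, φ ω ∂ustMeasure G S = ustE G S (fun T => φ (indic G T)) := by
  have ht := tau_pos (exists_tree h) (dbl_pos (∅ : Finset (Sym2 V)))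
  rw [ustMeasure, integral_finsetSum_measure, ustE, Finset.sum_div]
  · refine Finset.sum_congr rfl fun T _ => ?_
    rw [integral_smul_measure, integral_dirac, ENNReal.toReal_ofReal (by positivity)]
    split_ifs <;> simp [div_eq_inv_mul]
  · intro T _
    exact (integrable_dirac (by simp)).smul_measure ENNReal.ofReal_ne_top

lemma isProbabilityMeasure_ustMeasure {G : SimpleGraph V} {S : Finset V}
    (h : (G.induce (S : Set V)).Connected) : IsProbabilityMeasure (ustMeasure G S) := by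
  have ht := tau_pos (exists_tree h) (dbl_pos (∅ : Finset (Sym2 V)))
  constructor
  simp only [ustMeasure, Measure.coe_finsetSum, Finset.sum_apply, Measure.smul_apply,
    measure_univ, smul_eq_mul, mul_one]
  rw [← ENNReal.ofReal_sum_of_nonneg (fun T _ => by positivity), ← Finset.sum_div,
    ← tau_dbl_empty, div_self ht.ne', ENNReal.ofReal_one]

/-- existence of the free uniform spanning forest -/
theorem exists_fusf [Countable V] (G : SimpleGraph V) (S₀ : ℕ → Finset V) (h₀ : Exh G S₀) :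
    ∃ ν : Measure (G.edgeSet → Bool), IsProbabilityMeasure ν ∧
      ∀ S, Exh G S → ∀ (F : Finset G.edgeSet) (α β : G.edgeSet → ℝ),
        Tendsto (fun n => ustE G (S n)
          (fun T => ∏ f ∈ F, (α f + β f * if (f : Sym2 V) ∈ T then 1 else 0))) atTop
          (𝓝 (∫ ω, ∏ f ∈ F, (α f + β f * sg (ω f)) ∂ν)) := by
  let μ : ℕ → ProbabilityMeasure (G.edgeSet → Bool) := fun n =>
    ⟨ustMeasure G (S₀ n), isProbabilityMeasure_ustMeasure (h₀.2.2 n)⟩
  obtain ⟨ν, -, hν⟩ := isCompact_univ.ultrafilter_le_nhds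
    (Ultrafilter.map μ (hyperfilter ℕ)) (by simp)
  have hν' : Tendsto μ (hyperfilter ℕ) (𝓝 ν) := hν
  refine ⟨ν, inferInstance, fun S hS F α β => ?_⟩
  obtain ⟨L, hL⟩ := tendsto_prod G F α β
  have hcont : Continuous (fun ω : G.edgeSet → Bool => ∏ f ∈ F, (α f + β f * sg (ω f))) := by
    refine continuous_finsetProd _ fun f _ => continuous_const.add (continuous_const.mul ?_)
    exact (continuous_of_discreteTopology (f := sg)).comp (continuous_apply f)
  have h1 := ProbabilityMeasure.tendsto_iff_forall_integral_tendsto.1 hν'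
    (BoundedContinuousFunction.mkOfCompact ⟨_, hcont⟩)
  have h2 := (hL S₀ h₀).mono_left (show (hyperfilter ℕ : Filter ℕ) ≤ atTop from
    hyperfilter_le_cofinite.trans Nat.cofinite_eq_atTop.le)
  have h3 : ∀ n, ∫ ω, (BoundedContinuousFunction.mkOfCompact ⟨_, hcont⟩) ω ∂(μ n : Measure _) =
      ustE G (S₀ n) (fun T => ∏ f ∈ F, (α f + β f * if (f : Sym2 V) ∈ T then 1 else 0)) := by
    intro n
    refine (integral_ustMeasure (h₀.2.2 n) _).trans ?_
    simp [sg_indic]
  simp only [h3] at h1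
  have h4 := tendsto_nhds_unique h1 h2
  have h5 := hL S hS
  rw [← h4] at h5
  exact h5

end

end Crest.Agent.R168
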