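import Crest.Agent.R168.FUSF

/-!
Row 168: the posterior means of the free uniform spanning forest, as a canonical function of the
graph.
-/

set_option autoImplicit false

open SimpleGraph MeasureTheory Filter Topology

namespace Crest.Agent.R168

noncomputable section

open Classical Crest.ProbabilityR.SpanningTrees

variable {V : Type*}

/-- the vertices within distance `k` of the pair `e` -/
def ballSet (G : SimpleGraph V) (e : Sym2 V) : ℕ → Set V
  | 0 => {v | v ∈ e}
  | k + 1 => {v | v ∈ ballSet G e k ∨ ∃ u, u ∈ ballSet G e k ∧ G.Adj u v}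

/-- `A` is a spanning tree of the piece `B` -/
def Cond (G : SimpleGraph V) (B : Set V) (A : Finset (Sym2 V)) : Prop :=
  (∀ f ∈ A, f ∈ G.edgeSet ∧ ∀ v ∈ f, v ∈ B) ∧ ST B A

/-- log-weights -/
def lw (B : Set V) (y : Sym2 V → ℝ) (f : Sym2 V) : ℝ := if ∀ v ∈ f, v ∈ B then y f else 0

/-- denominator -/
def den (G : SimpleGraph V) (B B' : Set V) (y : Sym2 V → ℝ) : ℝ :=
  (∑' A : Finset (Sym2 V),
    ENNReal.ofReal (if Cond G B A then ∏ f ∈ A, Real.exp (lw B' y f) else 0)).toReal

/-- numerator -/
def num (G : SimpleGraph V) (B B' : Set V) (e : Sym2 V) (y : Sym2 V → ℝ) : ℝ :=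
  (∑' A : Finset (Sym2 V), ENNReal.ofReal
    (if e ∈ A then (if Cond G B A then ∏ f ∈ A, Real.exp (lw B' y f) else 0) else 0)).toReal

/-- the posterior mean -/
def MG (G : SimpleGraph V) (e : Sym2 V) (y : Sym2 V → ℝ) : ℝ :=
  limsup (fun n => limsup (fun k => num G (ballSet G e k) (ballSet G e n) e y /
    den G (ballSet G e k) (ballSet G e n) y) atTop) atTop

/-! ### dependence on the edges only -/

lemma MG_congr (G : SimpleGraph V) (e : Sym2 V) {y y' : Sym2 V → ℝ}
    (h : ∀ f ∈ G.edgeSet, y f = y' f) : MG G e y = MG G e y' := by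
  have key : ∀ B B' A, (if Cond G B A then ∏ f ∈ A, Real.exp (lw B' y f) else 0) =
      (if Cond G B A then ∏ f ∈ A, Real.exp (lw B' y' f) else 0) := by
    intro B B' A
    split_ifs with hA
    · refine Finset.prod_congr rfl fun f hf => ?_
      simp only [lw, h f (hA.1 f hf).1]
    · rfl
  simp only [MG, num, den, key]

/-! ### equivariance -/

/-- action of a bijection on unordered pairs -/
def sym2Equiv (σ : V ≃ V) : Sym2 V ≃ Sym2 V where
  toFun := Sym2.map σ
  invFun := Sym2.map σ.symm
  left_inv e := by simp [Sym2.map_map]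
  right_inv e := by simp [Sym2.map_map]

lemma sym2Equiv_apply (σ : V ≃ V) (e : Sym2 V) : sym2Equiv σ e = Sym2.map σ e := rfl

lemma forall_mem_map (σ : V ≃ V) (f : Sym2 V) (B : Set V) :
    (∀ v ∈ Sym2.map σ f, v ∈ B) ↔ ∀ v ∈ f, v ∈ σ ⁻¹' B := by
  induction f using Sym2.ind with
  | h x y => simp

lemma ballSet_comap (σ : V ≃ V) (G : SimpleGraph V) (e : Sym2 V) (k : ℕ) :
    ballSet (G.comap σ) e k = σ ⁻¹' ballSet G (Sym2.map σ e) k := by
  induction k with
  | zero =>
    induction e using Sym2.ind with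
    | h x y => ext v; simp [ballSet]
  | succ k ih =>
    ext v
    simp only [ballSet, ih, Set.mem_preimage, Set.mem_ofPred_eq, comap_adj]
    refine or_congr Iff.rfl ⟨?_, ?_⟩
    · rintro ⟨u, h1, h2⟩; exact ⟨σ u, h1, h2⟩
    · rintro ⟨u, h1, h2⟩; exact ⟨σ.symm u, by simpa using h1, by simpa using h2⟩

lemma gr_map_comap (σ : V ≃ V) (A : Finset (Sym2 V)) :
    (gr (A.map (sym2Equiv σ).toEmbedding)).comap σ = gr A := by
  ext x y
  rw [comap_adj, gr_adj, gr_adj]
  have : s(σ x, σ y) = (sym2Equiv σ).toEmbedding s(x, y) := rfl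
  rw [this, Finset.mem_map']
  simp

lemma cond_map (σ : V ≃ V) (G : SimpleGraph V) (B : Set V) (A : Finset (Sym2 V)) :
    Cond G B (A.map (sym2Equiv σ).toEmbedding) ↔ Cond (G.comap σ) (σ ⁻¹' B) A := by
  refine and_congr ?_ ?_
  · rw [Finset.forall_mem_map]
    refine forall_congr' fun f => forall_congr' fun _ => and_congr ?_ (forall_mem_map σ f B)
    induction f using Sym2.ind with
    | h x y => rfl
  · have φ := Iso.comap σ (gr (A.map (sym2Equiv σ).toEmbedding))
    have hr : ∀ x y, (gr A).Reachable x y ↔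
        (gr (A.map (sym2Equiv σ).toEmbedding)).Reachable (σ x) (σ y) := by
      intro x y
      rw [← gr_map_comap σ A]
      exact (Iso.reachable_iff (φ := Iso.comap σ (gr (A.map (sym2Equiv σ).toEmbedding)))).symm
    rw [gr_map_comap] at φ
    refine and_congr φ.isAcyclic_iff.symm ⟨fun h x hx y hy => (hr x y).2 (h _ hx _ hy),
      fun h x hx y hy => ?_⟩
    have := (hr (σ.symm x) (σ.symm y)).1 (h _ (by simpa using hx) _ (by simpa using hy))
    simpa using this

lemma MG_comap (σ : V ≃ V) (G : SimpleGraph V) (e : Sym2 V) (y : Sym2 V → ℝ) :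
    MG G (Sym2.map σ e) y = MG (G.comap σ) e (y ∘ Sym2.map σ) := by
  have key : ∀ (B B' : Set V) (A : Finset (Sym2 V)),
      (if Cond G B ((sym2Equiv σ).finsetCongr A) then
        ∏ f ∈ (sym2Equiv σ).finsetCongr A, Real.exp (lw B' y f) else 0) =
      (if Cond (G.comap σ) (σ ⁻¹' B) A then
        ∏ f ∈ A, Real.exp (lw (σ ⁻¹' B') (y ∘ Sym2.map σ) f) else 0) := by
    intro B B' A
    rw [Equiv.finsetCongr_apply, Finset.prod_map]
    refine if_congr (cond_map σ G B A) (Finset.prod_congr rfl fun f _ => ?_) rfl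
    congr 1
    exact if_congr (forall_mem_map σ f B') rfl rfl
  have hden : ∀ B B', den G B B' y = den (G.comap σ) (σ ⁻¹' B) (σ ⁻¹' B') (y ∘ Sym2.map σ) := by
    intro B B'
    rw [den, den, ← (sym2Equiv σ).finsetCongr.tsum_eq]
    simp only [key]
  have hnum : ∀ B B', num G B B' (Sym2.map σ e) y =
      num (G.comap σ) (σ ⁻¹' B) (σ ⁻¹' B') e (y ∘ Sym2.map σ) := by
    intro B B'
    rw [num, num, ← (sym2Equiv σ).finsetCongr.tsum_eq]
    simp only [key]
    congr 2
    funext A
    congr 1
    refine if_congr ?_ rfl rfl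
    rw [Equiv.finsetCongr_apply]
    exact Finset.mem_map' (sym2Equiv σ).toEmbedding
  simp only [MG, hden, hnum, ballSet_comap]

/-! ### measurability -/

section measurability

variable [Countable V] {P : Type*} [MeasurableSpace P] {G : P → SimpleGraph V}

lemma measurableSet_ballSet (hG : ∀ u v, MeasurableSet {p | (G p).Adj u v}) (e : Sym2 V) (k : ℕ)
    (v : V) : MeasurableSet {p | v ∈ ballSet (G p) e k} := by
  induction k generalizing v with
  | zero => exact MeasurableSet.const _
  | succ k ih =>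
    have : {p | v ∈ ballSet (G p) e (k + 1)} = {p | v ∈ ballSet (G p) e k} ∪
        ⋃ u, ({p | u ∈ ballSet (G p) e k} ∩ {p | (G p).Adj u v}) := by
      ext p; simp [ballSet]
    rw [this]
    exact (ih v).union (MeasurableSet.iUnion fun u => (ih u).inter (hG u v))

lemma measurableSet_forall_mem {B : P → Set V} (hB : ∀ v, MeasurableSet {p | v ∈ B p})
    (f : Sym2 V) : MeasurableSet {p | ∀ v ∈ f, v ∈ B p} := by
  simp only [Set.ofPred_forall]
  exact MeasurableSet.iInter fun v => MeasurableSet.iInter fun _ => hB v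

lemma measurableSet_cond (hG : ∀ u v, MeasurableSet {p | (G p).Adj u v}) {B : P → Set V}
    (hB : ∀ v, MeasurableSet {p | v ∈ B p}) (A : Finset (Sym2 V)) :
    MeasurableSet {p | Cond (G p) (B p) A} := by
  simp only [Cond, ST, Set.ofPred_and]
  refine MeasurableSet.inter ?_ ((MeasurableSet.const _).inter ?_)
  · simp only [Set.ofPred_forall]
    refine MeasurableSet.iInter fun f => MeasurableSet.iInter fun _ => ?_
    simp only [Set.ofPred_and]
    refine MeasurableSet.inter ?_ (measurableSet_forall_mem hB f)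
    induction f using Sym2.ind with
    | h x y => exact hG x y
  · have : {p | ∀ x ∈ B p, ∀ y ∈ B p, (gr A).Reachable x y} =
        ⋂ x, ⋂ y, ({p | x ∈ B p}ᶜ ∪ {p | y ∈ B p}ᶜ ∪ {_p | (gr A).Reachable x y}) := by
      ext p
      simp only [Set.mem_ofPred_eq, Set.mem_iInter, Set.mem_union, Set.mem_compl_iff]
      constructor
      · intro h x y
        by_cases hx : x ∈ B p
        · by_cases hy : y ∈ B p
          · exact Or.inr (h x hx y hy)
          · exact Or.inl (Or.inr hy)
        · exact Or.inl (Or.inl hx)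
      · intro h x hx y hy
        rcases h x y with (h | h) | h
        · exact absurd hx h
        · exact absurd hy h
        · exact h
    rw [this]
    exact MeasurableSet.iInter fun x => MeasurableSet.iInter fun y =>
      ((hB x).compl.union (hB y).compl).union (MeasurableSet.const _)

lemma measurable_MG (hG : ∀ u v, MeasurableSet {p | (G p).Adj u v}) {y : P → Sym2 V → ℝ}
    (hy : Measurable y) (e : Sym2 V) : Measurable (fun p => MG (G p) e (y p)) := by
  have key : ∀ (k n : ℕ) (A : Finset (Sym2 V)), Measurable (fun p =>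
      if Cond (G p) (ballSet (G p) e k) A then
        ∏ f ∈ A, Real.exp (lw (ballSet (G p) e n) (y p) f) else 0) := by
    intro k n A
    refine Measurable.ite (measurableSet_cond hG (measurableSet_ballSet hG e k) A)
      (Finset.measurable_prod _ fun f _ => Real.measurable_exp.comp ?_) measurable_const
    exact Measurable.ite (measurableSet_forall_mem (measurableSet_ballSet hG e n) f)
      ((measurable_pi_apply f).comp hy) measurable_const
  refine Measurable.limsup fun n => Measurable.limsup fun k => Measurable.div ?_ ?_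
  · refine (Measurable.tsum fun A => Measurable.ennreal_ofReal ?_).ennreal_toReal
    split_ifs
    · exact key k n A
    · exact measurable_const
  · exact (Measurable.tsum fun A => (key k n A).ennreal_ofReal).ennreal_toReal

end measurability

/-! ### finite pieces -/

lemma toReal_tsum_eq {E : Finset (Sym2 V)} {g : Finset (Sym2 V) → ℝ} (h0 : ∀ A, 0 ≤ g A)
    (h : ∀ A, ¬ A ⊆ E → g A = 0) :
    (∑' A : Finset (Sym2 V), ENNReal.ofReal (g A)).toReal = ∑ A ∈ E.powerset, g A := by
  rw [tsum_eq_sum (s := E.powerset) (fun A hA => by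
    rw [h A (fun h' => hA (Finset.mem_powerset.2 h')), ENNReal.ofReal_zero]),
    ← ENNReal.ofReal_sum_of_nonneg (fun A _ => h0 A),
    ENNReal.toReal_ofReal (Finset.sum_nonneg fun A _ => h0 A)]

lemma cond_iff (G : SimpleGraph V) (S : Finset V) (A : Finset (Sym2 V)) :
    Cond G (S : Set V) A ↔ A ⊆ edgesIn G S ∧ ST (S : Set V) A :=
  and_congr (forall₂_congr fun _ _ => mem_edgesIn.symm) Iff.rfl

lemma num_div_den (G : SimpleGraph V) (S : Finset V) (B' : Set V) (e : Sym2 V) (y : Sym2 V → ℝ) :
    num G (S : Set V) B' e y / den G (S : Set V) B' y =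
      pin (S : Set V) (edgesIn G S) (fun f => Real.exp (lw B' y f)) e := by
  have h0 : ∀ A : Finset (Sym2 V),
      0 ≤ (if Cond G (S : Set V) A then ∏ f ∈ A, Real.exp (lw B' y f) else 0) := by
    intro A; split_ifs <;> positivity
  have h1 : ∀ A : Finset (Sym2 V), ¬ A ⊆ edgesIn G S →
      (if Cond G (S : Set V) A then ∏ f ∈ A, Real.exp (lw B' y f) else 0) = 0 :=
    fun A hA => if_neg fun h => hA ((cond_iff G S A).1 h).1
  have h2 : ∀ A ∈ (edgesIn G S).powerset,
      (if Cond G (S : Set V) A then ∏ f ∈ A, Real.exp (lw B' y f) else 0) =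
      (if ST (S : Set V) A then ∏ f ∈ A, Real.exp (lw B' y f) else 0) := fun A hA =>
    if_congr ((cond_iff G S A).trans (and_iff_right (Finset.mem_powerset.1 hA))) rfl rfl
  rw [num, den, pin, tau, toReal_tsum_eq h0 h1, toReal_tsum_eq (E := edgesIn G S),
    Finset.sum_congr rfl h2]
  · congr 1
    exact Finset.sum_congr rfl fun A hA => by rw [h2 A hA]
  · intro A
    split_ifs <;> positivity
  · intro A hA
    rw [h1 A hA, ite_self]

lemma ballSet_finite {G : SimpleGraph V} (hG : ∀ v, (G.neighborSet v).Finite) (e : Sym2 V)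
    (k : ℕ) : (ballSet G e k).Finite := by
  induction k with
  | zero =>
    induction e using Sym2.ind with
    | h x y => exact (Set.toFinite {x, y}).subset fun v hv => by simpa [ballSet] using hv
  | succ k ih =>
    refine (ih.union (ih.biUnion fun u _ => hG u)).subset fun v hv => ?_
    rcases hv with h | ⟨u, h1, h2⟩
    · exact Or.inl h
    · exact Or.inr (Set.mem_biUnion h1 h2)

lemma ballSet_mono (G : SimpleGraph V) (e : Sym2 V) : Monotone (ballSet G e) :=
  monotone_nat_of_le_succ fun _ _ hv => Or.inl hv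

lemma ballSet_exh {G : SimpleGraph V} (hc : G.Connected) (hG : ∀ v, (G.neighborSet v).Finite)
    {e : Sym2 V} (he : e ∈ G.edgeSet) :
    Exh G (fun k => (ballSet_finite hG e k).toFinset) := by
  induction e using Sym2.ind with
  | h a b =>
  have ha : ∀ k, a ∈ ballSet G s(a, b) k := fun k =>
    ballSet_mono G _ (Nat.zero_le k) (by simp [ballSet])
  refine ⟨fun n m hnm => ?_, fun v => ?_, fun k => ?_⟩
  · simpa using ballSet_mono G _ hnm
  · have h := hc.preconnected a v
    rw [reachable_iff_reflTransGen] at h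
    simp only [Set.Finite.mem_toFinset]
    induction h with
    | refl => exact ⟨0, ha 0⟩
    | tail _ hbc ih =>
      obtain ⟨n, hn⟩ := ih
      exact ⟨n + 1, Or.inr ⟨_, hn, hbc⟩⟩
  · rw [Set.Finite.coe_toFinset]
    have key : ∀ j, ∀ (hj : j ≤ k) (v : V) (hv : v ∈ ballSet G s(a, b) j),
        (G.induce (ballSet G s(a, b) k)).Reachable ⟨a, ha k⟩ ⟨v, ballSet_mono G _ hj hv⟩ := by
      intro j
      induction j with
      | zero =>
        intro hj v hv
        rcases Sym2.mem_iff.1 hv with rfl | rfl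
        · rfl
        · exact Adj.reachable (by simpa using he)
      | succ j ih =>
        intro hj v hv
        rcases hv with h | ⟨u, h1, h2⟩
        · exact ih (Nat.le_of_succ_le hj) v h
        · exact (ih (Nat.le_of_succ_le hj) u h1).trans (Adj.reachable (by simpa using h2))
    have : Nonempty (ballSet G s(a, b) k) := ⟨⟨a, ha k⟩⟩
    exact ⟨fun x y => (key k le_rfl x x.2).symm.trans (key k le_rfl y y.2)⟩

/-- extension by zero of a field on the edges -/
def extE (G : SimpleGraph V) (y : G.edgeSet → ℝ) (f : Sym2 V) : ℝ :=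
  if h : f ∈ G.edgeSet then y ⟨f, h⟩ else 0

lemma extE_coe (G : SimpleGraph V) (y : G.edgeSet → ℝ) (f : G.edgeSet) : extE G y f = y f := by
  simp [extE, f.2]

/-- the posterior mean on the edge set -/
def ME (G : SimpleGraph V) (e : G.edgeSet) (y : G.edgeSet → ℝ) : ℝ := MG G e (extE G y)

lemma MG_eq_ME (G : SimpleGraph V) (e : G.edgeSet) (y : Sym2 V → ℝ) :
    MG G e y = ME G e (y ∘ Subtype.val) :=
  MG_congr G e fun f hf => by simp [extE, hf]

lemma ME_eq {G : SimpleGraph V} (hG : ∀ v, (G.neighborSet v).Finite) (e : G.edgeSet)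
    (y : G.edgeSet → ℝ) : ME G e y = limsup (fun n => limsup (fun k =>
      pin ((ballSet_finite hG e k).toFinset : Set V) (edgesIn G (ballSet_finite hG e k).toFinset)
        (fun f => Real.exp (lw (ballSet G e n) (extE G y) f)) e) atTop) atTop := by
  simp only [← num_div_den]
  simp only [ME, MG, Set.Finite.coe_toFinset]

lemma isLip_ME {G : SimpleGraph V} (hG : ∀ v, (G.neighborSet v).Finite) : IsLip (ME G) := by
  intro e y y' D hD
  have hD0 : 0 ≤ D := (abs_nonneg _).trans (hD e)
  rw [ME_eq hG, ME_eq hG]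
  have h0 := fun (S : Set V) (E : Finset (Sym2 V)) (z : Sym2 V → ℝ) =>
    pin_nonneg S E (c := fun f => Real.exp (z f)) (fun f => (Real.exp_pos _).le) e
  have h1 := fun (S : Set V) (E : Finset (Sym2 V)) (z : Sym2 V → ℝ) =>
    pin_le_one S E (c := fun f => Real.exp (z f)) (fun f => (Real.exp_pos _).le) e
  refine abs_limsup_sub_le
    (fun n => (limsup_mem_unit (fun k => h0 _ _ _) (fun k => h1 _ _ _)).1)
    (fun n => (limsup_mem_unit (fun k => h0 _ _ _) (fun k => h1 _ _ _)).2)
    (fun n => (limsup_mem_unit (fun k => h0 _ _ _) (fun k => h1 _ _ _)).1)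
    (fun n => (limsup_mem_unit (fun k => h0 _ _ _) (fun k => h1 _ _ _)).2) fun n => ?_
  refine abs_limsup_sub_le (fun k => h0 _ _ _) (fun k => h1 _ _ _) (fun k => h0 _ _ _)
    (fun k => h1 _ _ _) fun k => ?_
  refine (abs_pin_sub_le (adm_edgesIn G _) (fun f _ => ?_) hD0 e).trans (by linarith)
  unfold lw extE
  split_ifs
  · exact hD _
  all_goals simpa using hD0

lemma ustE_congr (G : SimpleGraph V) (S : Finset V) {φ ψ : Finset (Sym2 V) → ℝ}
    (h : ∀ T ⊆ edgesIn G S, φ T = ψ T) : ustE G S φ = ustE G S ψ := by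
  unfold ustE
  congr 1
  exact Finset.sum_congr rfl fun T hT => by rw [h T (Finset.mem_powerset.1 hT)]

lemma isPost_ME {G : SimpleGraph V} (hc : G.Connected) (hG : ∀ v, (G.neighborSet v).Finite)
    {ν : Measure (G.edgeSet → Bool)} [IsProbabilityMeasure ν]
    (hν : ∀ S, Exh G S → ∀ (F : Finset G.edgeSet) (α β : G.edgeSet → ℝ),
        Tendsto (fun n => ustE G (S n)
          (fun T => ∏ f ∈ F, (α f + β f * if (f : Sym2 V) ∈ T then 1 else 0))) atTop
          (𝓝 (∫ ω, ∏ f ∈ F, (α f + β f * sg (ω f)) ∂ν))) : IsPost ν (ME G) := by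
  intro e
  set S : ℕ → Finset V := fun k => (ballSet_finite hG e k).toFinset with hS
  have hex : Exh G S := ballSet_exh hc hG e.2
  set F : ℕ → Finset G.edgeSet := fun n => (edgesIn G (S n)).subtype (· ∈ G.edgeSet) with hF
  refine ⟨F, fun n m hnm => Finset.subtype_mono (edgesIn_mono G (hex.1 hnm)), fun u => ?_,
    fun y => ?_⟩
  · obtain ⟨n, hn⟩ := (hex.eventually_edges (A := {u.1}) (by simp)).exists
    exact ⟨n, Finset.mem_subtype.2 (hn (Finset.mem_singleton_self _))⟩
  rw [ME_eq hG]
  congr 1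
  funext n
  refine Tendsto.limsup_eq ?_
  have heF : e ∈ F n := Finset.mem_subtype.2 (mem_edgesIn.2 ⟨e.2, fun v hv => by
    simp only [hS, Set.Finite.mem_toFinset]
    exact ballSet_mono G _ (Nat.zero_le n) hv⟩)
  have hw1 : ∀ ω : G.edgeSet → Bool,
      ∏ f ∈ F n, ((1 : ℝ) + (Real.exp (y f) - 1) * sg (ω f)) = wt (F n) y ω := by
    intro ω
    rw [wt, Real.exp_sum]
    refine Finset.prod_congr rfl fun f _ => ?_
    cases ω f <;> simp [sg]
  have hw2 : ∀ ω : G.edgeSet → Bool,
      ∏ f ∈ F n, ((if f = e then (0 : ℝ) else 1) +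
        (if f = e then Real.exp (y f) else Real.exp (y f) - 1) * sg (ω f)) =
        sg (ω e) * wt (F n) y ω := by
    intro ω
    rw [← hw1, ← Finset.mul_prod_erase _ _ heF, ← Finset.mul_prod_erase _ _ heF, ← mul_assoc]
    congr 1
    · cases ω e <;> simp [sg]
    · refine Finset.prod_congr rfl fun f hf => ?_
      rw [if_neg (Finset.ne_of_mem_erase hf), if_neg (Finset.ne_of_mem_erase hf)]
  have h1 := hν S hex (F n) (fun _ => 1) (fun f => Real.exp (y f) - 1)
  have h2 := hν S hex (F n) (fun f => if f = e then 0 else 1)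
    (fun f => if f = e then Real.exp (y f) else Real.exp (y f) - 1)
  simp only [← sg_indic, hw1, hw2] at h1 h2
  have hwt : ∀ k, ∀ T ⊆ edgesIn G (S k), wt (F n) y (indic G T) =
      ∏ f ∈ T, Real.exp (lw (ballSet G e n) (extE G y) f) := by
    intro k T hT
    rw [wt, ← Real.exp_sum]
    congr 1
    have := Finset.sum_subtype_eq_sum_filter (s := edgesIn G (S n)) (p := (· ∈ G.edgeSet))
      (fun f => extE G y f * if f ∈ T then 1 else 0)
    simp only [extE_coe, ← sg_indic] at this
    rw [hF]
    simp only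
    rw [this, Finset.filter_true_of_mem (fun f hf => (mem_edgesIn.1 hf).1)]
    simp only [mul_ite, mul_one, mul_zero]
    rw [Finset.sum_ite_mem, Finset.inter_comm, ← Finset.sum_ite_mem]
    refine Finset.sum_congr rfl fun f hf => ?_
    refine if_congr ?_ rfl rfl
    rw [mem_edgesIn, and_iff_right (mem_edgesIn.1 (hT hf)).1]
    simp [hS]
  refine (h2.div h1 (integral_wt_pos ν (F n) y).ne').congr fun k => ?_
  have ht := tau_pos (exists_tree (hex.2.2 k)) (dbl_pos (∅ : Finset (Sym2 V)))
  simp only [Pi.div_apply]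
  rw [ustE_congr G (S k) (hwt k), ustE_congr G (S k) (fun T hT => by rw [hwt k T hT]),
    ustE, ustE, div_div_div_cancel_right₀ ht.ne', pin, tau]
  congr 1
  refine Finset.sum_congr rfl fun T _ => ?_
  rw [sg_indic]
  split_ifs <;> simp

end

end Crest.Agent.R168
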