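import Crest.Agent.R168.Prod

/-!
Row 168: Bayes' formula and the posterior mean given the earlier observations.
-/

set_option autoImplicit false

open MeasureTheory Filter Topology ProbabilityTheory

namespace Crest.Agent.R168

noncomputable section

variable {I : Type*}

/-- the tilting weight -/
def wt (F : Finset I) (y : I → ℝ) (σ : I → Bool) : ℝ := Real.exp (∑ u ∈ F, y u * sg (σ u))

/-- mean of the bit at `v` under the law tilted by the field `y` on `F` -/
def tilt (ν : Measure (I → Bool)) (v : I) (F : Finset I) (y : I → ℝ) : ℝ :=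
  (∫ σ, sg (σ v) * wt F y σ ∂ν) / ∫ σ, wt F y σ ∂ν

lemma wt_pos (F : Finset I) (y : I → ℝ) (σ : I → Bool) : 0 < wt F y σ := Real.exp_pos _

lemma abs_wt_le (F : Finset I) (y : I → ℝ) (σ : I → Bool) :
    |wt F y σ| ≤ Real.exp (∑ u ∈ F, |y u|) := by
  rw [abs_of_pos (wt_pos F y σ)]
  refine Real.exp_le_exp.2 (Finset.sum_le_sum fun u _ => (le_abs_self _).trans ?_)
  rw [abs_mul]
  exact mul_le_of_le_one_right (abs_nonneg _) (abs_sg_le _)

lemma measurable_wt (F : Finset I) : Measurable (fun p : (I → ℝ) × (I → Bool) => wt F p.1 p.2) := by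
  unfold wt
  refine Real.measurable_exp.comp (Finset.measurable_sum _ fun u _ => ?_)
  exact ((measurable_pi_apply u).comp measurable_fst).mul
    (measurable_sg.comp ((measurable_pi_apply u).comp measurable_snd))

lemma measurable_wt_right (F : Finset I) (y : I → ℝ) : Measurable (wt F y) :=
  (measurable_wt F).comp (measurable_const.prodMk measurable_id)

lemma measurable_sg_apply (v : I) : Measurable (fun σ : I → Bool => sg (σ v)) :=
  measurable_sg.comp (measurable_pi_apply v)

section

variable (ν : Measure (I → Bool)) [IsProbabilityMeasure ν]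

lemma integrable_wt (F : Finset I) (y : I → ℝ) : Integrable (wt F y) ν :=
  integrable_of_bdd (measurable_wt_right F y) (abs_wt_le F y)

lemma integrable_sg_wt (v : I) (F : Finset I) (y : I → ℝ) :
    Integrable (fun σ => sg (σ v) * wt F y σ) ν :=
  integrable_of_bdd ((measurable_sg_apply v).mul (measurable_wt_right F y))
    (C := Real.exp (∑ u ∈ F, |y u|)) fun σ => by
      rw [abs_mul]
      exact (mul_le_of_le_one_left (abs_nonneg _) (abs_sg_le _)).trans (abs_wt_le F y σ)

lemma integral_wt_pos (F : Finset I) (y : I → ℝ) : 0 < ∫ σ, wt F y σ ∂ν := by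
  rw [integral_pos_iff_support_of_nonneg (fun σ => (wt_pos F y σ).le) (integrable_wt ν F y)]
  have : Function.support (wt F y) = Set.univ := by
    ext σ; simp [(wt_pos F y σ).ne']
  rw [this]; simp

lemma tilt_nonneg (v : I) (F : Finset I) (y : I → ℝ) : 0 ≤ tilt ν v F y :=
  div_nonneg (integral_nonneg fun σ => mul_nonneg (sg_nonneg _) (wt_pos F y σ).le)
    (integral_wt_pos ν F y).le

lemma tilt_le_one (v : I) (F : Finset I) (y : I → ℝ) : tilt ν v F y ≤ 1 := by
  rw [tilt, div_le_one (integral_wt_pos ν F y)]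
  exact integral_mono (integrable_sg_wt ν v F y) (integrable_wt ν F y) fun σ =>
    mul_le_of_le_one_left (wt_pos F y σ).le (sg_le_one _)

lemma measurable_tilt (v : I) (F : Finset I) : Measurable (tilt ν v F) := by
  unfold tilt
  refine Measurable.div ?_ ?_
  · refine (StronglyMeasurable.integral_prod_right' (ν := ν)
      (f := fun p : (I → ℝ) × (I → Bool) => sg (p.2 v) * wt F p.1 p.2) ?_).measurable
    exact (((measurable_sg_apply v).comp measurable_snd).mul (measurable_wt F)).stronglyMeasurable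
  · exact (StronglyMeasurable.integral_prod_right' (ν := ν)
      (f := fun p : (I → ℝ) × (I → Bool) => wt F p.1 p.2)
      (measurable_wt F).stronglyMeasurable).measurable

end

lemma tilt_congr (ν : Measure (I → Bool)) (v : I) (F : Finset I) {y y' : I → ℝ}
    (h : ∀ u ∈ F, y u = y' u) : tilt ν v F y = tilt ν v F y' := by
  have : wt F y = wt F y' := by
    funext σ
    unfold wt
    rw [Finset.sum_congr rfl fun u hu => by rw [h u hu]]
  simp only [tilt, this]

/-- the order in which the observations are made -/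
def prec (r : I → I → Prop) (b a : ℕ × I) : Prop := b.1 < a.1 ∨ (b.1 = a.1 ∧ r b.2 a.2)

lemma field_congr_at (r : I → I → Prop) {X X' : ℕ × I → ℝ} (a : ℕ × I) (u : I)
    (h : ∀ b, prec r b a → b.2 = u → X b = X' b) : field r X a u = field r X' a u := by
  unfold field
  congr 1
  · exact Finset.sum_congr rfl fun j hj => by
      rw [h (j, u) (Or.inl (Finset.mem_range.1 hj)) rfl]
  · split_ifs with hr
    · rw [h (a.1, u) (Or.inr ⟨rfl, hr⟩) rfl]
    · rfl

lemma field_congr (r : I → I → Prop) {X X' : ℕ × I → ℝ} (a : ℕ × I)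
    (h : ∀ b, prec r b a → X b = X' b) : field r X a = field r X' a :=
  funext fun u => field_congr_at r a u fun b hb _ => h b hb

open Classical in
/-- the observations made before `a` at sites of `F` -/
def obsSet (r : I → I → Prop) (a : ℕ × I) (F : Finset I) : Finset (ℕ × I) :=
  (Finset.range (a.1 + 1) ×ˢ F).filter (fun b => prec r b a)

lemma mem_obsSet {r : I → I → Prop} {a b : ℕ × I} {F : Finset I} :
    b ∈ obsSet r a F ↔ prec r b a ∧ b.2 ∈ F := by
  simp only [obsSet, Finset.mem_filter, Finset.mem_product, Finset.mem_range]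
  constructor
  · rintro ⟨⟨_, h2⟩, h3⟩; exact ⟨h3, h2⟩
  · rintro ⟨h1, h2⟩
    refine ⟨⟨?_, h2⟩, h1⟩
    rcases h1 with h | h <;> omega

lemma sum_obsSet (r : I → I → Prop) (a : ℕ × I) (F : Finset I) (X : ℕ × I → ℝ) (c : I → ℝ) :
    ∑ b ∈ obsSet r a F, llr (X b) * c b.2 = ∑ u ∈ F, field r X a u * c u := by
  classical
  rw [obsSet, Finset.sum_filter, Finset.sum_product_right]
  refine Finset.sum_congr rfl fun u _ => ?_
  rw [Finset.sum_range_succ, field, add_mul, Finset.sum_mul]
  congr 1
  · refine Finset.sum_congr rfl fun j hj => ?_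
    rw [if_pos (show prec r (j, u) a from Or.inl (Finset.mem_range.1 hj))]
  · by_cases h : r u a.2
    · rw [if_pos (show prec r (a.1, u) a from Or.inr ⟨rfl, h⟩), if_pos h]
    · rw [if_neg h, if_neg, zero_mul]
      rintro (h' | h')
      · exact lt_irrefl _ h'
      · exact h h'.2

open Classical in
/-- extension by zero -/
def ext0 {K : Type*} (B : Finset K) (x : B → ℝ) : K → ℝ :=
  fun b => if h : b ∈ B then x ⟨b, h⟩ else 0

lemma measurable_ext0 {K : Type*} (B : Finset K) : Measurable (ext0 B) := by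
  refine measurable_pi_lambda _ fun b => ?_
  unfold ext0
  split_ifs
  · exact measurable_pi_apply _
  · exact measurable_const

lemma ext0_coe {K : Type*} (B : Finset K) (x : B → ℝ) (b : B) : ext0 B x b = x b := by
  simp [ext0]

lemma ext0_restrict {K : Type*} (B : Finset K) (X : K → ℝ) {b : K} (hb : b ∈ B) :
    ext0 B (B.restrict X) b = X b := by
  simp [ext0, hb]

lemma measurable_field' (r : I → I → Prop) (a : ℕ × I) :
    Measurable (fun X : ℕ × I → ℝ => field r X a) :=
  measurable_field (P := ℕ × I → ℝ) (r := fun _ => r) (X := id)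
    (fun _ _ => MeasurableSet.const _) measurable_id a

variable (ν : Measure (I → Bool)) [IsProbabilityMeasure ν]

lemma integral_joint' (B : Finset (ℕ × I))
    {g : (B → ℝ) → ℝ} (hg : Measurable g) {C : ℝ} (hC : ∀ x, |g x| ≤ C)
    {φ : (I → Bool) → ℝ} (hφ : Measurable φ) (hφ1 : ∀ σ, |φ σ| ≤ 1) :
    ∫ ω, g (B.restrict ω.2) * φ ω.1 ∂(ν ⊗ₘ obsKernel I) =
      ∫ x, ∫ σ, (∏ b : B, dens (sg (σ b.1.2)) (x b)) * (g x * φ σ) ∂ν
        ∂Measure.pi (fun _ : B => lam0) := by
  have hC0 : 0 ≤ C := (abs_nonneg _).trans (hC 0)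
  rw [Measure.integral_compProd]
  swap
  · refine integrable_of_bdd ((hg.comp ((Finset.measurable_restrict B).comp measurable_snd)).mul
      (hφ.comp measurable_fst)) (C := C) fun ω => ?_
    rw [abs_mul]
    exact (mul_le_of_le_one_right (abs_nonneg _) (hφ1 _)).trans (hC _)
  have h1 : ∀ σ : I → Bool, ∫ X, g (B.restrict X) * φ σ ∂obsKernel I σ =
      ∫ x, (∏ b : B, dens (sg (σ b.1.2)) (x b)) * (g x * φ σ) ∂Measure.pi (fun _ : B => lam0) := by
    intro σ
    rw [obsKernel_apply, ← integral_pi_mu (fun b : B => σ b.1.2)]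
    exact integral_restrict_infinitePi (fun a : ℕ × I => mu (σ a.2)) (s := B)
      (f := fun x => g x * φ σ) (hg.mul_const _).aestronglyMeasurable
  simp only [h1]
  rw [integral_integral_swap]
  refine integrable_of_bdd (C := (∏ _b : B, (2 : ℝ)) * C) ?_ fun p => ?_
  · refine Measurable.mul (Finset.measurable_prod _ fun b _ => ?_)
      ((hg.comp measurable_snd).mul (hφ.comp measurable_fst))
    have h2 : Measurable (fun p : Bool × ℝ => dens (sg p.1) p.2) :=
      measurable_from_prod_countable_right fun b => measurable_dens (sg b)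
    have h3 : Measurable (fun p : (I → Bool) × (B → ℝ) => (p.1 b.1.2, p.2 b)) := by fun_prop
    exact h2.comp h3
  · simp only [Function.uncurry]
    rw [abs_mul, abs_mul, Finset.abs_prod]
    refine mul_le_mul (Finset.prod_le_prod (fun i _ => abs_nonneg _) fun i _ => abs_dens_le _ _)
      ((mul_le_of_le_one_right (abs_nonneg _) (hφ1 _)).trans (hC _)) (by positivity)
      (by positivity)

lemma integral_joint (r : I → I → Prop) (a : ℕ × I) (F : Finset I)
    {g : (obsSet r a F → ℝ) → ℝ} (hg : Measurable g) {C : ℝ} (hC : ∀ x, |g x| ≤ C)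
    {φ : (I → Bool) → ℝ} (hφ : Measurable φ) (hφ1 : ∀ σ, |φ σ| ≤ 1) :
    ∫ ω, g ((obsSet r a F).restrict ω.2) * φ ω.1 ∂(ν ⊗ₘ obsKernel I) =
      ∫ x, g x * (∏ b, dens 0 (x b)) *
        (∫ σ, φ σ * wt F (field r (ext0 _ x) a) σ ∂ν) ∂Measure.pi (fun _ : obsSet r a F => lam0) := by
  rw [integral_joint' ν _ hg hC hφ hφ1]
  refine integral_congr_ae (ae_of_all _ fun x => ?_)
  simp only
  rw [← integral_const_mul]
  refine integral_congr_ae (ae_of_all _ fun σ => ?_)
  simp only
  have : ∏ b : obsSet r a F, dens (sg (σ b.1.2)) (x b) =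
      (∏ b, dens 0 (x b)) * wt F (field r (ext0 _ x) a) σ := by
    simp only [dens_eq_exp]
    rw [Finset.prod_mul_distrib, ← Real.exp_sum, wt,
      ← sum_obsSet r a F (ext0 _ x) (fun u => sg (σ u)), ← Finset.sum_coe_sort (obsSet r a F)]
    simp only [ext0_coe]
  rw [this]
  ring

omit [IsProbabilityMeasure ν] in
lemma tilt_field_ext0 (r : I → I → Prop) (a : ℕ × I) (F : Finset I) (v : I) (X : ℕ × I → ℝ) :
    tilt ν v F (field r (ext0 _ ((obsSet r a F).restrict X)) a) = tilt ν v F (field r X a) :=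
  tilt_congr ν v F fun u hu => field_congr_at r a u fun _ hb hbu =>
    ext0_restrict _ _ (mem_obsSet.2 ⟨hb, hbu ▸ hu⟩)

/-- Bayes' formula -/
lemma bayes (r : I → I → Prop) (a : ℕ × I) (F : Finset I) (v : I)
    {g : (obsSet r a F → ℝ) → ℝ} (hg : Measurable g) {C : ℝ} (hC : ∀ x, |g x| ≤ C) :
    ∫ ω, g ((obsSet r a F).restrict ω.2) * tilt ν v F (field r ω.2 a) ∂(ν ⊗ₘ obsKernel I) =
      ∫ ω, g ((obsSet r a F).restrict ω.2) * sg (ω.1 v) ∂(ν ⊗ₘ obsKernel I) := by
  rw [integral_joint ν r a F hg hC (measurable_sg_apply v) (fun σ => abs_sg_le _)]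
  have hT : Measurable (fun x : obsSet r a F → ℝ => tilt ν v F (field r (ext0 _ x) a)) :=
    (measurable_tilt ν v F).comp ((measurable_field' r a).comp (measurable_ext0 _))
  have := integral_joint ν r a F (g := fun x => g x * tilt ν v F (field r (ext0 _ x) a))
    (hg.mul hT) (C := C) (fun x => by
      rw [abs_mul, abs_of_nonneg (tilt_nonneg ν v F _)]
      exact (mul_le_of_le_one_right (abs_nonneg _) (tilt_le_one ν v F _)).trans (hC x))
    (φ := fun _ => 1) measurable_const (by simp)
  simp only [tilt_field_ext0, mul_one, one_mul] at this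
  rw [this]
  refine integral_congr_ae (ae_of_all _ fun x => ?_)
  simp only [tilt]
  have := (integral_wt_pos ν F (field r (ext0 _ x) a)).ne'
  field_simp

/-- the posterior mean given all earlier observations -/
lemma posterior (r : I → I → Prop) (a : ℕ × I) (v : I) (F : ℕ → Finset I) (hF : Monotone F)
    (hF' : ∀ u, ∃ n, u ∈ F n) {g : (ℕ × I → ℝ) → ℝ} (hg : Measurable g) {C : ℝ}
    (hC : ∀ x, |g x| ≤ C) (hdep : ∀ X X', (∀ b, prec r b a → X b = X' b) → g X = g X') :
    ∫ ω, g ω.2 * sg (ω.1 v) ∂(ν ⊗ₘ obsKernel I) =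
      ∫ ω, g ω.2 * limsup (fun n => tilt ν v (F n) (field r ω.2 a)) atTop
        ∂(ν ⊗ₘ obsKernel I) := by
  classical
  set P := ν ⊗ₘ obsKernel I with hP
  have hres : ∀ n, Measurable (fun ω : (I → Bool) × (ℕ × I → ℝ) =>
      (obsSet r a (F n)).restrict ω.2) := fun n =>
    (Finset.measurable_restrict _).comp measurable_snd
  let 𝒢 : Filtration ℕ (inferInstance : MeasurableSpace ((I → Bool) × (ℕ × I → ℝ))) :=
    { seq := fun n => MeasurableSpace.comap (fun ω => (obsSet r a (F n)).restrict ω.2) inferInstance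
      mono' := by
        intro n m hnm
        have hsub : obsSet r a (F n) ⊆ obsSet r a (F m) := fun b hb =>
          mem_obsSet.2 ⟨(mem_obsSet.1 hb).1, hF hnm (mem_obsSet.1 hb).2⟩
        have : (fun ω : (I → Bool) × (ℕ × I → ℝ) => (obsSet r a (F n)).restrict ω.2) =
            Finset.restrict₂ (π := fun _ => ℝ) hsub ∘
              (fun ω => (obsSet r a (F m)).restrict ω.2) := rfl
        simp only
        rw [this, ← MeasurableSpace.comap_comp]
        exact MeasurableSpace.comap_mono (Finset.measurable_restrict₂ hsub).comap_le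
      le' := fun n => (hres n).comap_le }
  have hf : Integrable (fun ω : (I → Bool) × (ℕ × I → ℝ) => sg (ω.1 v)) P :=
    integrable_of_bdd ((measurable_sg_apply v).comp measurable_fst) (fun ω => abs_sg_le _)
  have hcond : ∀ n, (fun ω : (I → Bool) × (ℕ × I → ℝ) => tilt ν v (F n) (field r ω.2 a)) =ᵐ[P]
      P[fun ω => sg (ω.1 v) | 𝒢 n] := by
    intro n
    have hTm : Measurable (fun ω : (I → Bool) × (ℕ × I → ℝ) => tilt ν v (F n) (field r ω.2 a)) :=
      (measurable_tilt ν v _).comp ((measurable_field' r a).comp measurable_snd)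
    have hTi : Integrable (fun ω : (I → Bool) × (ℕ × I → ℝ) => tilt ν v (F n) (field r ω.2 a)) P :=
      integrable_of_bdd hTm (C := 1) fun ω => by
        rw [abs_of_nonneg (tilt_nonneg ν v _ _)]; exact tilt_le_one ν v _ _
    refine ae_eq_condExp_of_forall_setIntegral_eq (𝒢.le n) hf (fun s _ _ => hTi.integrableOn)
      (fun s hs _ => ?_) ?_
    · obtain ⟨S, hS, rfl⟩ := hs
      rw [← integral_indicator (hres n hS), ← integral_indicator (hres n hS)]
      have := bayes ν r a (F n) v (g := S.indicator fun _ => 1) (measurable_const.indicator hS)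
        (C := 1) (fun x => by by_cases hx : x ∈ S <;> simp [hx])
      convert this using 3 with ω ω
      · by_cases hx : (obsSet r a (F n)).restrict ω.2 ∈ S <;> simp [Set.indicator, hx]
      · by_cases hx : (obsSet r a (F n)).restrict ω.2 ∈ S <;> simp [Set.indicator, hx]
    · have hT : Measurable (fun x : obsSet r a (F n) → ℝ => tilt ν v (F n) (field r (ext0 _ x) a)) :=
        (measurable_tilt ν v _).comp ((measurable_field' r a).comp (measurable_ext0 _))
      have : (fun ω : (I → Bool) × (ℕ × I → ℝ) => tilt ν v (F n) (field r ω.2 a)) =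
          (fun x : obsSet r a (F n) → ℝ => tilt ν v (F n) (field r (ext0 _ x) a)) ∘
            (fun ω => (obsSet r a (F n)).restrict ω.2) := by
        funext ω
        exact (tilt_field_ext0 ν r a (F n) v ω.2).symm
      rw [this]
      exact (hT.comp (comap_measurable _)).stronglyMeasurable.aestronglyMeasurable
  have hlim : (fun ω : (I → Bool) × (ℕ × I → ℝ) =>
      limsup (fun n => tilt ν v (F n) (field r ω.2 a)) atTop) =ᵐ[P]
      P[fun ω => sg (ω.1 v) | ⨆ n, 𝒢 n] := by
    filter_upwards [tendsto_ae_condExp (μ := P) (ℱ := 𝒢) (fun ω => sg (ω.1 v)),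
      ae_all_iff.2 hcond] with ω h1 h2
    refine Tendsto.limsup_eq ?_
    simpa only [h2] using h1
  have hle : (⨆ n, 𝒢 n) ≤ (inferInstance : MeasurableSpace ((I → Bool) × (ℕ × I → ℝ))) :=
    iSup_le fun n => 𝒢.le n
  have hgm : Measurable[⨆ n, 𝒢 n] (fun ω : (I → Bool) × (ℕ × I → ℝ) => g ω.2) := by
    have : (fun ω : (I → Bool) × (ℕ × I → ℝ) => g ω.2) =
        g ∘ (fun ω b => if prec r b a then ω.2 b else 0) := by
      funext ω
      exact hdep _ _ fun b hb => by simp [hb]
    rw [this]
    refine hg.comp (@measurable_pi_lambda _ _ _ (⨆ n, 𝒢 n) _ _ fun b => ?_)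
    split_ifs with hb
    · obtain ⟨n, hn⟩ := hF' b.2
      have hmem : b ∈ obsSet r a (F n) := mem_obsSet.2 ⟨hb, hn⟩
      have h1 : Measurable[𝒢 n] (fun ω : (I → Bool) × (ℕ × I → ℝ) => ω.2 b) :=
        (measurable_pi_apply (⟨b, hmem⟩ : obsSet r a (F n))).comp (comap_measurable
          (fun ω : (I → Bool) × (ℕ × I → ℝ) => (obsSet r a (F n)).restrict ω.2))
      exact h1.mono (le_iSup (fun n => 𝒢 n) n) le_rfl
    · exact measurable_const
  have hpull := condExp_stronglyMeasurable_mul_of_bound hle hgm.stronglyMeasurable hf C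
    (ae_of_all _ fun ω => hC _)
  have := integral_condExp (μ := P) (f := (fun ω : (I → Bool) × (ℕ × I → ℝ) => g ω.2) *
    (fun ω => sg (ω.1 v))) hle
  rw [integral_congr_ae hpull] at this
  refine Eq.trans this.symm (integral_congr_ae ?_)
  filter_upwards [hlim] with ω hω
  simp only [Pi.mul_apply, hω]

end

end Crest.Agent.R168
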