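import Crest.Agent.R168.Innov
import Crest.Prelude.Def_StronglyRayleigh

/-!
Row 168: for a strongly Rayleigh law the tilted means are Lipschitz in the sup norm of the field.
-/

set_option autoImplicit false

open MeasureTheory Filter Topology ProbabilityTheory

namespace Crest.Agent.R168

noncomputable section

lemma strip_deriv_le {f : ℂ → ℂ} (hd : ∀ w : ℂ, |w.im| ≤ 1 → DifferentiableAt ℂ f w)
    (hb : ∀ w : ℂ, |w.im| ≤ 1 → ‖f w‖ * Real.sin |w.im| ≤ 1) (t : ℂ) (ht : t.im = 0) :
    ‖deriv f t‖ ≤ Real.pi := by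
  set h : ℂ → ℂ := fun w => ((w - t) ^ 2 - 1) * f w with hh
  have him : ∀ w ∈ Metric.closedBall t 1, |w.im| ≤ 1 := by
    intro w hw
    rw [Metric.mem_closedBall, dist_eq_norm] at hw
    have := Complex.abs_im_le_norm (w - t)
    rw [Complex.sub_im, ht, sub_zero] at this
    linarith
  have hdh : ∀ w ∈ Metric.closedBall t 1, DifferentiableAt ℂ h w := by
    intro w hw
    have := hd w (him w hw)
    rw [hh]
    fun_prop
  have hdc : DiffContOnCl ℂ h (Metric.ball t 1) := by
    refine DifferentiableOn.diffContOnCl ?_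
    rw [closure_ball t one_ne_zero]
    exact fun w hw => (hdh w hw).differentiableWithinAt
  have hC : ∀ w ∈ Metric.sphere t 1, ‖h w‖ ≤ Real.pi := by
    intro w hw
    have h1 := him w (Metric.sphere_subset_closedBall hw)
    rw [Metric.mem_sphere, dist_eq_norm] at hw
    have h2 : ‖(w - t) ^ 2 - 1‖ = 2 * |w.im| := by
      have e1 : (w - t) * (starRingEnd ℂ) (w - t) = 1 := by
        rw [Complex.mul_conj, Complex.normSq_eq_norm_sq, hw]; simp
      have e2 : (w - t) ^ 2 - 1 = (w - t) * ((w - t) - (starRingEnd ℂ) (w - t)) := by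
        rw [mul_sub, e1]; ring
      rw [e2, norm_mul, hw, one_mul, Complex.sub_conj, Complex.sub_im, ht, sub_zero]
      simp
    have h3 : 2 / Real.pi * |w.im| ≤ Real.sin |w.im| :=
      Real.mul_le_sin (abs_nonneg _) (by linarith [Real.pi_gt_three])
    have h4 := hb w h1
    simp only [hh, norm_mul, h2]
    have h5 : ‖f w‖ * (2 / Real.pi * |w.im|) ≤ 1 :=
      (mul_le_mul_of_nonneg_left h3 (norm_nonneg _)).trans h4
    have hpi := Real.pi_pos
    have : 2 * |w.im| * ‖f w‖ = Real.pi * (‖f w‖ * (2 / Real.pi * |w.im|)) := by field_simp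
    rw [this]
    exact mul_le_of_le_one_right hpi.le h5
  have h6 := Complex.norm_deriv_le_of_forall_mem_sphere_norm_le one_pos hdc hC
  have h7 : deriv h t = -deriv f t := by
    have hf := (hd t (by simp [ht])).hasDerivAt
    have hp : HasDerivAt (fun w : ℂ => (w - t) ^ 2 - 1) 0 t := by
      have := (((hasDerivAt_id t).sub_const t).pow 2).sub_const 1
      simpa using this
    have := (hp.mul hf).deriv
    rw [hh]
    refine Eq.trans this ?_
    simp
  rw [h7, norm_neg, div_one] at h6
  exact h6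

lemma strip_lip {f : ℂ → ℂ} (hd : ∀ w : ℂ, |w.im| ≤ 1 → DifferentiableAt ℂ f w)
    (hb : ∀ w : ℂ, |w.im| ≤ 1 → ‖f w‖ * Real.sin |w.im| ≤ 1) (s : ℝ) :
    ‖f s - f 0‖ ≤ Real.pi * |s| := by
  have hconv : Convex ℝ {w : ℂ | w.im = 0} := by
    intro x hx y hy a b _ _ _
    simp only [Set.mem_ofPred_eq] at hx hy ⊢
    simp [hx, hy]
  have := hconv.norm_image_sub_le_of_norm_deriv_le (𝕜 := ℂ) (f := f) (C := Real.pi)
    (fun w (hw : w.im = 0) => hd w (by simp [hw]))
    (fun w hw => strip_deriv_le hd hb w hw) (x := 0) (y := (s : ℂ))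
    (show (0 : ℂ).im = 0 from rfl) (show (s : ℂ).im = 0 from rfl)
  simpa using this

variable {I : Type*}

open Crest.ProbabilityR.StronglyRayleigh

/-- mass of a cylinder -/
def cylMass (ν : Measure (I → Bool)) (F S : Finset I) : ℝ :=
  (ν {ω | ∀ i ∈ F, (ω i = true ↔ i ∈ S)}).toReal

lemma measurableSet_cyl (F S : Finset I) :
    MeasurableSet {ω : I → Bool | ∀ i ∈ F, (ω i = true ↔ i ∈ S)} := by
  have : {ω : I → Bool | ∀ i ∈ F, (ω i = true ↔ i ∈ S)} =
      ⋂ i ∈ F, (fun ω : I → Bool => ω i) ⁻¹' {b | b = true ↔ i ∈ S} := by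
    ext ω; simp
  rw [this]
  exact Finset.measurableSet_biInter _ fun i _ => measurable_pi_apply i (MeasurableSet.of_discrete)

open Classical in
lemma integral_filter (ν : Measure (I → Bool)) [IsFiniteMeasure ν] (F : Finset I)
    (φ : Finset I → ℝ) :
    ∫ σ, φ (F.filter (fun i => σ i = true)) ∂ν = ∑ S ∈ F.powerset, cylMass ν F S * φ S := by
  have : (fun σ : I → Bool => φ (F.filter (fun i => σ i = true))) = fun σ =>
      ∑ S ∈ F.powerset, {ω : I → Bool | ∀ i ∈ F, (ω i = true ↔ i ∈ S)}.indicator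
        (fun _ => φ S) σ := by
    funext σ
    rw [Finset.sum_eq_single (F.filter (fun i => σ i = true))]
    · rw [Set.indicator_of_mem]
      intro i hi
      simp [hi]
    · intro S hS hne
      rw [Set.indicator_of_notMem]
      intro h
      apply hne
      ext i
      simp only [Finset.mem_filter]
      constructor
      · intro hi
        have hiF := Finset.mem_powerset.1 hS hi
        exact ⟨hiF, (h i hiF).2 hi⟩
      · rintro ⟨h1, h2⟩
        exact (h i h1).1 h2
    · intro h
      exact absurd (Finset.mem_powerset.2 (Finset.filter_subset _ _)) h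
  rw [this, integral_finsetSum]
  · refine Finset.sum_congr rfl fun S _ => ?_
    rw [integral_indicator_const _ (measurableSet_cyl F S)]
    simp [cylMass, Measure.real]
  · intro S _
    exact (integrable_const _).indicator (measurableSet_cyl F S)

open Classical in
lemma wt_eq_filter (F : Finset I) (y : I → ℝ) (σ : I → Bool) :
    wt F y σ = ∏ i ∈ F.filter (fun i => σ i = true), Real.exp (y i) := by
  rw [wt, ← Real.exp_sum, Finset.sum_filter]
  congr 1
  refine Finset.sum_congr rfl fun i _ => ?_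
  cases σ i <;> simp [sg]

open Classical in
/-- numerator polynomial -/
def numPoly (ν : Measure (I → Bool)) (v : I) (F : Finset I) (z : I → ℂ) : ℂ :=
  ∑ S ∈ F.powerset, (cylMass ν F S : ℂ) * if v ∈ S then ∏ i ∈ S, z i else 0

lemma genPoly_eq (ν : Measure (I → Bool)) (F : Finset I) (z : I → ℂ) :
    genPoly ν F z = ∑ S ∈ F.powerset, (cylMass ν F S : ℂ) * ∏ i ∈ S, z i := rfl

lemma integral_wt_eq (ν : Measure (I → Bool)) [IsFiniteMeasure ν] (F : Finset I) (y : I → ℝ) :
    ((∫ σ, wt F y σ ∂ν : ℝ) : ℂ) = genPoly ν F (fun i => Complex.exp (y i)) := by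
  classical
  simp only [wt_eq_filter]
  rw [integral_filter ν F (fun S => ∏ i ∈ S, Real.exp (y i)), genPoly_eq]
  push_cast
  rfl

lemma integral_sg_wt_eq (ν : Measure (I → Bool)) [IsFiniteMeasure ν] {v : I} {F : Finset I}
    (hv : v ∈ F) (y : I → ℝ) :
    ((∫ σ, sg (σ v) * wt F y σ ∂ν : ℝ) : ℂ) = numPoly ν v F (fun i => Complex.exp (y i)) := by
  classical
  have : ∀ σ : I → Bool, sg (σ v) * wt F y σ =
      (fun S : Finset I => if v ∈ S then ∏ i ∈ S, Real.exp (y i) else 0)
        (F.filter (fun i => σ i = true)) := by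
    intro σ
    simp only [wt_eq_filter, Finset.mem_filter, hv, true_and]
    cases σ v <;> simp [sg]
  simp only [this]
  rw [integral_filter ν F (fun S : Finset I => if v ∈ S then ∏ i ∈ S, Real.exp (y i) else 0),
    numPoly]
  push_cast
  refine Finset.sum_congr rfl fun S _ => ?_
  split_ifs <;> simp

lemma numPoly_bound {ν : Measure (I → Bool)} (h : IsStronglyRayleigh ν) {v : I} {F : Finset I}
    (hv : v ∈ F) {z : I → ℂ} (hz : ∀ i ∈ F, 0 < (z i).im) :
    ‖numPoly ν v F z‖ * (z v).im ≤ ‖z v‖ * ‖genPoly ν F z‖ := by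
  classical
  set A : ℂ := ∑ S ∈ F.powerset, (cylMass ν F S : ℂ) * if v ∈ S then ∏ i ∈ S.erase v, z i else 0
    with hA
  set B : ℂ := ∑ S ∈ F.powerset, (cylMass ν F S : ℂ) * if v ∈ S then 0 else ∏ i ∈ S, z i with hB
  have h1 : ∀ ζ : ℂ, genPoly ν F (Function.update z v ζ) = ζ * A + B := by
    intro ζ
    rw [genPoly_eq, hA, hB, Finset.mul_sum, ← Finset.sum_add_distrib]
    refine Finset.sum_congr rfl fun S _ => ?_
    split_ifs with hS
    · rw [Finset.prod_update_of_mem hS, Finset.sdiff_singleton_eq_erase]; ring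
    · rw [Finset.prod_update_of_notMem hS]; ring
  have h2 : numPoly ν v F z = z v * A := by
    rw [numPoly, hA, Finset.mul_sum]
    refine Finset.sum_congr rfl fun S _ => ?_
    split_ifs with hS
    · rw [← Finset.mul_prod_erase S z hS]; ring
    · ring
  have h3 : genPoly ν F z = z v * A + B := by rw [← h1, Function.update_eq_self]
  by_cases hA0 : A = 0
  · rw [h2, hA0]; simp only [mul_zero, norm_zero, zero_mul]; positivity
  have h4 : 0 ≤ (B / A).im := by
    by_contra h4
    push Not at h4
    refine h F (Function.update z v (-(B / A))) (fun i hi => ?_) ?_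
    · by_cases hiv : i = v
      · subst hiv; rw [Function.update_self, Complex.neg_im]; linarith
      · rw [Function.update_of_ne hiv]; exact hz i hi
    · rw [h1]; field_simp; ring
  have h5 : genPoly ν F z = A * (z v + B / A) := by rw [h3]; field_simp
  have h6 : (z v).im ≤ ‖z v + B / A‖ := by
    have := Complex.im_le_norm (z v + B / A)
    rw [Complex.add_im] at this
    linarith
  rw [h2, h5, norm_mul, norm_mul, mul_assoc]
  gcongr

lemma genPoly_conj (ν : Measure (I → Bool)) (F : Finset I) (z : I → ℂ) :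
    genPoly ν F (fun i => (starRingEnd ℂ) (z i)) = (starRingEnd ℂ) (genPoly ν F z) := by
  simp [genPoly_eq, map_sum, map_prod]

lemma numPoly_conj (ν : Measure (I → Bool)) (v : I) (F : Finset I) (z : I → ℂ) :
    numPoly ν v F (fun i => (starRingEnd ℂ) (z i)) = (starRingEnd ℂ) (numPoly ν v F z) := by
  classical
  simp only [numPoly, map_sum, map_mul, Complex.conj_ofReal]
  refine Finset.sum_congr rfl fun S _ => ?_
  split_ifs <;> simp [map_prod]

lemma tilt_dir_lip {ν : Measure (I → Bool)} [IsProbabilityMeasure ν] (h : IsStronglyRayleigh ν)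
    {v : I} {F : Finset I} (hv : v ∈ F) (y a : I → ℝ) (ha0 : ∀ u, 0 < a u) (ha1 : ∀ u, a u ≤ 1)
    (hav : a v = 1) (s : ℝ) :
    |tilt ν v F (fun u => y u + s * a u) - tilt ν v F y| ≤ Real.pi * |s| := by
  classical
  set z : ℂ → I → ℂ := fun w i => Complex.exp (y i + w * a i) with hz
  set f : ℂ → ℂ := fun w => numPoly ν v F (z w) / genPoly ν F (z w) with hf
  have hreal : ∀ t : ℝ, z t = fun i => Complex.exp ((y i + t * a i : ℝ) : ℂ) := by
    intro t; funext i; simp [hz]
  have hft : ∀ t : ℝ, f t = (tilt ν v F (fun u => y u + t * a u) : ℂ) := by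
    intro t
    simp only [hf, hreal, tilt]
    rw [← integral_wt_eq ν F (fun u => y u + t * a u),
      ← integral_sg_wt_eq ν hv (fun u => y u + t * a u)]
    push_cast
    rfl
  have hconj : ∀ w : ℂ, z ((starRingEnd ℂ) w) = fun i => (starRingEnd ℂ) (z w i) := by
    intro w; funext i
    simp only [hz]
    rw [← Complex.exp_conj]
    simp
  have him : ∀ w : ℂ, 0 < w.im → w.im ≤ 1 → ∀ i, 0 < (z w i).im := by
    intro w h0 h1 i
    simp only [hz, Complex.exp_im]
    refine mul_pos (Real.exp_pos _) (Real.sin_pos_of_pos_of_lt_pi ?_ ?_)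
    · simpa using mul_pos h0 (ha0 i)
    · have : w.im * a i ≤ 1 := mul_le_one₀ h1 (ha0 i).le (ha1 i)
      have h3 : (↑(y i) + w * ↑(a i)).im = w.im * a i := by simp
      rw [h3]
      linarith [Real.pi_gt_three]
  have hup : ∀ w : ℂ, 0 < w.im → w.im ≤ 1 → genPoly ν F (z w) ≠ 0 ∧
      ‖numPoly ν v F (z w)‖ * Real.sin w.im ≤ ‖genPoly ν F (z w)‖ := by
    intro w h0 h1
    refine ⟨h F _ fun i _ => him w h0 h1 i, ?_⟩
    have h2 := numPoly_bound h hv (fun i _ => him w h0 h1 i)
    have h3 : (z w v).im = ‖z w v‖ * Real.sin w.im := by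
      simp only [hz, Complex.exp_im, Complex.norm_exp, hav]
      simp
    have h4 : 0 < ‖z w v‖ := by simp only [hz, Complex.norm_exp]; exact Real.exp_pos _
    rw [h3] at h2
    nlinarith
  have hall : ∀ w : ℂ, |w.im| ≤ 1 → genPoly ν F (z w) ≠ 0 ∧
      ‖numPoly ν v F (z w)‖ * Real.sin |w.im| ≤ ‖genPoly ν F (z w)‖ := by
    intro w hw
    rcases lt_trichotomy w.im 0 with h0 | h0 | h0
    · have := hup ((starRingEnd ℂ) w) (by simpa using h0) (by
        rw [abs_of_neg h0] at hw; simpa using hw)
      rw [hconj, genPoly_conj, numPoly_conj] at this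
      rw [abs_of_neg h0]
      simpa using this
    · have hw' : w = (w.re : ℂ) := by apply Complex.ext <;> simp [h0]
      constructor
      · rw [hw', hreal, ← integral_wt_eq ν F (fun u => y u + w.re * a u)]
        exact_mod_cast (integral_wt_pos ν F _).ne'
      · simp [h0]
    · rw [abs_of_pos h0] at hw ⊢
      exact hup w h0 hw
  have hd : ∀ w : ℂ, |w.im| ≤ 1 → DifferentiableAt ℂ f w := by
    intro w hw
    refine DifferentiableAt.div ?_ ?_ (hall w hw).1
    · simp only [numPoly, hz]
      refine DifferentiableAt.fun_sum fun S _ => DifferentiableAt.const_mul ?_ _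
      split_ifs
      · fun_prop
      · fun_prop
    · simp only [genPoly_eq, hz]
      fun_prop
  have hb : ∀ w : ℂ, |w.im| ≤ 1 → ‖f w‖ * Real.sin |w.im| ≤ 1 := by
    intro w hw
    obtain ⟨h1, h2⟩ := hall w hw
    simp only [hf, norm_div]
    rw [div_mul_eq_mul_div, div_le_one (norm_pos_iff.2 h1)]
    exact h2
  have := strip_lip hd hb s
  have h0 := hft 0
  simp only [Complex.ofReal_zero, zero_mul, add_zero] at h0
  rw [hft s, h0, ← Complex.ofReal_sub, Complex.norm_real, Real.norm_eq_abs] at this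
  exact this

lemma tilt_lip {ν : Measure (I → Bool)} [IsProbabilityMeasure ν] (h : IsStronglyRayleigh ν)
    {v : I} {F : Finset I} (hv : v ∈ F) (y y' : I → ℝ) {D : ℝ} (hD : ∀ u, |y u - y' u| ≤ D) :
    |tilt ν v F y - tilt ν v F y'| ≤ 30 * D := by
  classical
  have hD0 : 0 ≤ D := (abs_nonneg _).trans (hD v)
  rcases hD0.eq_or_lt with hD1 | hD1
  · have : y = y' := funext fun u => by
      have := hD u
      rw [← hD1, abs_nonpos_iff, sub_eq_zero] at this
      exact this
    rw [this, sub_self, abs_zero, ← hD1]; simp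
  set s : ℝ := 4 * D + (y' v - y v) with hs
  have hv' := abs_le.1 (hD v)
  have hs0 : 0 < s := by linarith [hv'.2]
  set a : I → ℝ := fun u => if u = v then 1 else (2 * D + (y' u - y u)) / s with ha
  set a' : I → ℝ := fun u => if u = v then 1 else 1 / 2 with ha'
  have e : (fun u => y u + s * a u) = fun u => y' u + (4 * D) * a' u := by
    funext u
    simp only [ha, ha']
    split_ifs with hu
    · subst hu; rw [hs]; ring
    · field_simp; ring
  have h1 := tilt_dir_lip h hv y a (fun u => by
      simp only [ha]; split_ifs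
      · exact one_pos
      · exact div_pos (by linarith [(abs_le.1 (hD u)).2]) hs0)
    (fun u => by
      simp only [ha]; split_ifs
      · exact le_rfl
      · rw [div_le_one hs0]; linarith [(abs_le.1 (hD u)).1, hv'.2])
    (by simp [ha]) s
  have h2 := tilt_dir_lip h hv y' a' (fun u => by simp only [ha']; split_ifs <;> norm_num)
    (fun u => by simp only [ha']; split_ifs <;> norm_num) (by simp [ha']) (4 * D)
  rw [e] at h1
  rw [abs_of_pos hs0] at h1
  rw [abs_of_pos (by linarith : 0 < 4 * D)] at h2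
  have hpi := Real.pi_lt_d2
  have hs1 : s ≤ 5 * D := by linarith [hv'.1]
  rw [abs_le] at h1 h2 ⊢
  constructor <;> nlinarith [h1.1, h1.2, h2.1, h2.2, Real.pi_pos]

end

end Crest.Agent.R168
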