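import Mathlib

/-!
Row 168: Kirchhoff's formula for the potential via spanning two-forests, and Rayleigh's
monotonicity for weighted spanning trees.
-/

set_option autoImplicit false

open SimpleGraph

namespace Crest.Agent.R168

noncomputable section

open Classical

variable {V : Type*}

/-- graph with the given edges -/
def gr (A : Finset (Sym2 V)) : SimpleGraph V := fromEdgeSet (A : Set (Sym2 V))

lemma gr_adj {A : Finset (Sym2 V)} {x y : V} : (gr A).Adj x y ↔ s(x, y) ∈ A ∧ x ≠ y := by
  simp [gr]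

lemma gr_insert (A : Finset (Sym2 V)) (x y : V) : gr (insert s(x, y) A) = gr A ⊔ edge x y := by
  rw [gr, Finset.coe_insert, Set.insert_eq, fromEdgeSet_union, sup_comm]
  rfl

/-- spanning tree of `S` -/
def ST (S : Set V) (A : Finset (Sym2 V)) : Prop :=
  (gr A).IsAcyclic ∧ ∀ x ∈ S, ∀ y ∈ S, (gr A).Reachable x y

/-- spanning two-forest of `S` separating `a` from `b` -/
def TF (S : Set V) (A : Finset (Sym2 V)) (a b : V) : Prop :=
  (gr A).IsAcyclic ∧ ¬ (gr A).Reachable a b ∧
    ∀ z ∈ S, (gr A).Reachable a z ∨ (gr A).Reachable b z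

lemma reachable_sup_edge {H : SimpleGraph V} {x y z : V} (h : (H ⊔ edge x y).Reachable x z) :
    H.Reachable x z ∨ H.Reachable y z := by
  rw [reachable_iff_reflTransGen] at h
  induction h with
  | refl => exact Or.inl (Reachable.refl _)
  | tail _ hbc ih =>
    rcases hbc with h | h
    · exact ih.imp (fun h' => h'.trans h.reachable) (fun h' => h'.trans h.reachable)
    · rw [edge_adj] at h
      rcases h.1 with ⟨_, rfl⟩ | ⟨_, rfl⟩
      · exact Or.inr (Reachable.refl _)
      · exact Or.inl (Reachable.refl _)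

lemma ST_insert_iff {S : Set V} {A : Finset (Sym2 V)} {x y : V} (hx : x ∈ S) (hxy : x ≠ y)
    (hA : s(x, y) ∉ A) : ST S (insert s(x, y) A) ↔ TF S A x y := by
  rw [ST, TF, gr_insert]
  constructor
  · rintro ⟨h1, h2⟩
    rw [isAcyclic_sup_fromEdgeSet_iff] at h1
    refine ⟨h1.1, fun h => ?_, fun z hz => reachable_sup_edge (h2 x hx z hz)⟩
    rcases h1.2 h with h | h
    · exact hxy h
    · exact hA (gr_adj.1 h).1
  · rintro ⟨h1, h2, h3⟩
    refine ⟨h1.sup_edge_of_not_reachable h2, ?_⟩
    have hadj : (gr A ⊔ edge x y).Adj x y := Or.inr (by simp [edge_adj, hxy])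
    have : ∀ z ∈ S, (gr A ⊔ edge x y).Reachable x z := by
      intro z hz
      rcases h3 z hz with h | h
      · exact h.mono le_sup_left
      · exact hadj.reachable.trans (h.mono le_sup_left)
    exact fun u hu v hv => (this u hu).symm.trans (this v hv)

/-- indicator of the component of `a` -/
def chi (A : Finset (Sym2 V)) (a z : V) : ℝ := if (gr A).Reachable a z then 1 else 0

lemma chi_self (A : Finset (Sym2 V)) (a : V) : chi A a a = 1 := by simp [chi]

lemma chi_eq_of_reachable {A : Finset (Sym2 V)} (a : V) {x y : V} (h : (gr A).Reachable x y) :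
    chi A a x = chi A a y := by
  have : (gr A).Reachable a x ↔ (gr A).Reachable a y :=
    ⟨fun h' => h'.trans h, fun h' => h'.trans h.symm⟩
  simp only [chi, this]

/-- the edge term of the Dirichlet form -/
def form (φ ψ : V → ℝ) : Sym2 V → ℝ :=
  Sym2.lift ⟨fun x y => (φ x - φ y) * (ψ x - ψ y), fun x y => by ring⟩

@[simp] lemma form_mk (φ ψ : V → ℝ) (x y : V) :
    form φ ψ s(x, y) = (φ x - φ y) * (ψ x - ψ y) := rfl

lemma form_self_nonneg (φ : V → ℝ) (f : Sym2 V) : 0 ≤ form φ φ f := by
  induction f using Sym2.ind with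
  | h x y => simp only [form_mk]; exact mul_self_nonneg _

lemma form_sq (φ ψ : V → ℝ) (f : Sym2 V) : form φ ψ f ^ 2 = form φ φ f * form ψ ψ f := by
  induction f using Sym2.ind with
  | h x y => simp only [form_mk]; ring

lemma form_sum {ι : Type*} (s : Finset ι) (w : ι → ℝ) (g : ι → V → ℝ) (φ : V → ℝ) (f : Sym2 V) :
    form (fun z => ∑ i ∈ s, w i * g i z) φ f = ∑ i ∈ s, w i * form (g i) φ f := by
  induction f using Sym2.ind with
  | h x y =>
    simp only [form_mk]
    rw [← Finset.sum_sub_distrib, Finset.sum_mul]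
    exact Finset.sum_congr rfl fun i _ => by ring

/-- admissible edge sets -/
def Adm (S : Set V) (E : Finset (Sym2 V)) : Prop := ∀ x y, s(x, y) ∈ E → x ≠ y ∧ x ∈ S ∧ y ∈ S

lemma tree_identity {S : Set V} {T : Finset (Sym2 V)} (hT : ST S T) (hadm : Adm S T)
    {a b : V} (ha : a ∈ S) (hb : b ∈ S) (φ : V → ℝ) :
    φ a - φ b = ∑ f ∈ T, form (chi (T.erase f) a) φ f * (1 - chi (T.erase f) a b) := by
  set ψ : V → ℝ := fun z => φ z - ∑ f ∈ T, form (chi (T.erase f) a) φ f * chi (T.erase f) a z
    with hψ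
  have hadj : ∀ x y, (gr T).Adj x y → ψ x = ψ y := by
    intro x y hxy
    obtain ⟨h1, h2⟩ := gr_adj.1 hxy
    have h3 : ∑ f ∈ T, form (chi (T.erase f) a) φ f * chi (T.erase f) a x -
        ∑ f ∈ T, form (chi (T.erase f) a) φ f * chi (T.erase f) a y = φ x - φ y := by
      rw [← Finset.sum_sub_distrib, Finset.sum_eq_single s(x, y)]
      · have hTF : TF S (T.erase s(x, y)) x y := by
          rw [← ST_insert_iff (hadm x y h1).2.1 h2 (Finset.notMem_erase _ _),
            Finset.insert_erase h1]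
          exact hT
        have h4 := hTF.2.2 a ha
        have h5 := hTF.2.1
        simp only [form_mk, chi]
        by_cases hx : (gr (T.erase s(x, y))).Reachable a x
        · have hy : ¬ (gr (T.erase s(x, y))).Reachable a y := fun hy => h5 (hx.symm.trans hy)
          simp [hx, hy]
        · have hy : (gr (T.erase s(x, y))).Reachable a y :=
            (h4.resolve_left fun h => hx h.symm).symm
          simp [hx, hy]
      · intro f _ hne
        have : (gr (T.erase f)).Adj x y := gr_adj.2 ⟨Finset.mem_erase.2 ⟨hne.symm, h1⟩, h2⟩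
        rw [chi_eq_of_reachable a this.reachable, sub_self]
      · intro h; exact absurd h1 h
    simp only [hψ]
    linarith
  have hab : ψ a = ψ b := by
    have h := hT.2 a ha b hb
    rw [reachable_iff_reflTransGen] at h
    clear hb
    induction h with
    | refl => rfl
    | tail _ hbc ih => exact ih.trans (hadj _ _ hbc)
  simp only [hψ, chi_self, mul_one] at hab
  simp only [mul_sub, mul_one, Finset.sum_sub_distrib]
  linarith

lemma sum_powerset_mem {E : Finset (Sym2 V)} {f : Sym2 V} (hf : f ∈ E)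
    (g : Finset (Sym2 V) → ℝ) :
    ∑ T ∈ E.powerset, (if f ∈ T then g T else 0) =
      ∑ F ∈ E.powerset, (if f ∈ F then 0 else g (insert f F)) := by
  rw [← Finset.sum_filter]
  have : ∑ F ∈ E.powerset, (if f ∈ F then 0 else g (insert f F)) =
      ∑ F ∈ E.powerset.filter (fun F => f ∉ F), g (insert f F) := by
    rw [Finset.sum_filter]
    exact Finset.sum_congr rfl fun F _ => by by_cases h : f ∈ F <;> simp [h]
  rw [this]
  refine Finset.sum_bij' (fun T _ => T.erase f) (fun F _ => insert f F) ?_ ?_ ?_ ?_ ?_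
  · intro T hT
    simp only [Finset.mem_filter, Finset.mem_powerset] at hT ⊢
    exact ⟨(Finset.erase_subset _ _).trans hT.1, Finset.notMem_erase _ _⟩
  · intro F hF
    simp only [Finset.mem_filter, Finset.mem_powerset] at hF ⊢
    exact ⟨Finset.insert_subset hf hF.1, Finset.mem_insert_self _ _⟩
  · intro T hT
    exact Finset.insert_erase (Finset.mem_filter.1 hT).2
  · intro F hF
    exact Finset.erase_insert (Finset.mem_filter.1 hF).2
  · intro T hT
    rw [Finset.insert_erase (Finset.mem_filter.1 hT).2]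

/-- weighted number of spanning trees -/
def tau (S : Set V) (E : Finset (Sym2 V)) (c : Sym2 V → ℝ) : ℝ :=
  ∑ T ∈ E.powerset, if ST S T then ∏ f ∈ T, c f else 0

/-- weight of a two-forest -/
def tfw (S : Set V) (c : Sym2 V → ℝ) (a b : V) (F : Finset (Sym2 V)) : ℝ :=
  if TF S F a b then ∏ f ∈ F, c f else 0

/-- weighted number of two-forests -/
def Wt (S : Set V) (E : Finset (Sym2 V)) (c : Sym2 V → ℝ) (a b : V) : ℝ :=
  ∑ F ∈ E.powerset, tfw S c a b F

/-- the (unnormalised) potential -/
def pot (S : Set V) (E : Finset (Sym2 V)) (c : Sym2 V → ℝ) (a b : V) (z : V) : ℝ :=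
  ∑ F ∈ E.powerset, tfw S c a b F * chi F a z

/-- Dirichlet form -/
def energy (E : Finset (Sym2 V)) (c : Sym2 V → ℝ) (φ ψ : V → ℝ) : ℝ :=
  ∑ f ∈ E, c f * form φ ψ f

lemma pot_left (S : Set V) (E : Finset (Sym2 V)) (c : Sym2 V → ℝ) (a b : V) :
    pot S E c a b a = Wt S E c a b := by
  simp [pot, Wt, chi_self]

lemma pot_right (S : Set V) (E : Finset (Sym2 V)) (c : Sym2 V → ℝ) (a b : V) :
    pot S E c a b b = 0 := by
  refine Finset.sum_eq_zero fun F _ => ?_
  unfold tfw
  split_ifs with h
  · simp [chi, h.2.1]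
  · simp

lemma kirchhoff {S : Set V} {E : Finset (Sym2 V)} (hE : Adm S E) (c : Sym2 V → ℝ)
    {a b : V} (ha : a ∈ S) (hb : b ∈ S) (φ : V → ℝ) :
    energy E c (pot S E c a b) φ = tau S E c * (φ a - φ b) := by
  have hR : tau S E c * (φ a - φ b) = ∑ f ∈ E, ∑ T ∈ E.powerset, (if f ∈ T then
      (if ST S T then ∏ f ∈ T, c f else 0) *
        (form (chi (T.erase f) a) φ f * (1 - chi (T.erase f) a b)) else 0) := by
    rw [Finset.sum_comm, tau, Finset.sum_mul]
    refine Finset.sum_congr rfl fun T hT => ?_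
    have hTE := Finset.mem_powerset.1 hT
    rw [← Finset.sum_filter, Finset.filter_mem_eq_inter, Finset.inter_eq_right.2 hTE,
      ← Finset.mul_sum]
    split_ifs with h
    · rw [← tree_identity h (fun x y hxy => hE x y (hTE hxy)) ha hb φ]
    · simp
  rw [hR, energy]
  refine Finset.sum_congr rfl fun f hf => ?_
  rw [sum_powerset_mem hf]
  have := form_sum E.powerset (tfw S c a b) (fun F => chi F a) φ f
  unfold pot
  rw [this, Finset.mul_sum]
  refine Finset.sum_congr rfl fun F _ => ?_
  induction f using Sym2.ind with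
  | h x y =>
  obtain ⟨hxy, hx, hy⟩ := hE x y hf
  by_cases hF : s(x, y) ∈ F
  · rw [if_pos hF, form_mk, chi_eq_of_reachable a (gr_adj.2 ⟨hF, hxy⟩).reachable]
    simp
  rw [if_neg hF, Finset.erase_insert hF, Finset.prod_insert hF, ST_insert_iff hx hxy hF, form_mk]
  by_cases hc : chi F a x = chi F a y
  · rw [hc]; simp
  have hiff : TF S F a b ↔ TF S F x y ∧ ¬ (gr F).Reachable a b := by
    have hc' : ((gr F).Reachable a x ∧ ¬ (gr F).Reachable a y) ∨
        (¬ (gr F).Reachable a x ∧ (gr F).Reachable a y) := by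
      unfold chi at hc
      by_cases h1 : (gr F).Reachable a x <;> by_cases h2 : (gr F).Reachable a y <;> simp_all
    constructor
    · rintro ⟨h1, h2, h3⟩
      refine ⟨⟨h1, fun h => hc (chi_eq_of_reachable a h), fun z hz => ?_⟩, h2⟩
      rcases hc' with ⟨h4, h5⟩ | ⟨h4, h5⟩
      · have h6 := (h3 y hy).resolve_left h5
        exact (h3 z hz).imp (fun h => h4.symm.trans h) (fun h => h6.symm.trans h)
      · have h6 := (h3 x hx).resolve_left h4
        exact (h3 z hz).symm.imp (fun h => h6.symm.trans h) (fun h => h5.symm.trans h)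
    · rintro ⟨⟨h1, -, h3⟩, h2⟩
      refine ⟨h1, h2, fun z hz => ?_⟩
      rcases hc' with ⟨h4, -⟩ | ⟨-, h5⟩
      · have h6 := (h3 b hb).resolve_left fun h => h2 (h4.trans h)
        exact (h3 z hz).imp (fun h => h4.trans h) (fun h => h6.symm.trans h)
      · have h6 := (h3 b hb).resolve_right fun h => h2 (h5.trans h)
        exact (h3 z hz).symm.imp (fun h => h5.trans h) (fun h => h6.symm.trans h)
  unfold tfw
  by_cases h1 : TF S F x y
  · by_cases h2 : (gr F).Reachable a b
    · rw [if_neg (fun h => (hiff.1 h).2 h2)]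
      simp [chi, h2]
    · rw [if_pos (hiff.2 ⟨h1, h2⟩), if_pos h1]
      have : chi F a b = 0 := by simp [chi, h2]
      rw [this]; ring
  · rw [if_neg (fun h => h1 (hiff.1 h).1), if_neg h1]
    simp

lemma Wt_nonneg (S : Set V) (E : Finset (Sym2 V)) {c : Sym2 V → ℝ} (hc : ∀ f, 0 ≤ c f) (a b : V) :
    0 ≤ Wt S E c a b :=
  Finset.sum_nonneg fun F _ => by
    unfold tfw
    split_ifs
    · exact Finset.prod_nonneg fun f _ => hc f
    · exact le_rfl

/-- Rayleigh's monotonicity -/
lemma rayleigh {S S' : Set V} {E E' : Finset (Sym2 V)} (hE : Adm S E) (hE' : Adm S' E')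
    (hS : S ⊆ S') (hEE : E ⊆ E') {c c' : Sym2 V → ℝ} (hc : ∀ f, 0 ≤ c f) (hc' : ∀ f, 0 ≤ c' f)
    {lam : ℝ} (hlam : 0 ≤ lam) (hcc : ∀ f ∈ E, c f ≤ lam * c' f) {a b : V} (ha : a ∈ S)
    (hb : b ∈ S) (ht : 0 < tau S E c) (ht' : 0 < tau S' E' c') :
    Wt S' E' c' a b / tau S' E' c' ≤ lam * (Wt S E c a b / tau S E c) := by
  set v := pot S E c a b with hv
  set v' := pot S' E' c' a b with hv'
  have h1 : energy E c v v' = tau S E c * Wt S' E' c' a b := by
    rw [hv, kirchhoff hE c ha hb, hv', pot_left, pot_right, sub_zero]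
  have h2 : energy E c v v = tau S E c * Wt S E c a b := by
    rw [hv, kirchhoff hE c ha hb, pot_left, pot_right, sub_zero]
  have h3 : energy E' c' v' v' = tau S' E' c' * Wt S' E' c' a b := by
    rw [hv', kirchhoff hE' c' (hS ha) (hS hb), pot_left, pot_right, sub_zero]
  have h4 : energy E c v v' ^ 2 ≤ energy E c v v * energy E c v' v' :=
    Finset.sum_sq_le_sum_mul_sum_of_sq_le_mul E
      (fun f _ => mul_nonneg (hc f) (form_self_nonneg _ f))
      (fun f _ => mul_nonneg (hc f) (form_self_nonneg _ f))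
      (fun f _ => le_of_eq (by rw [mul_pow, form_sq]; ring))
  have h5 : energy E c v' v' ≤ lam * energy E' c' v' v' := by
    unfold energy
    rw [Finset.mul_sum]
    refine le_trans (Finset.sum_le_sum fun f hf => ?_)
      (Finset.sum_le_sum_of_subset_of_nonneg hEE fun f _ _ =>
        mul_nonneg hlam (mul_nonneg (hc' f) (form_self_nonneg _ f)))
    rw [← mul_assoc]
    exact mul_le_mul_of_nonneg_right (hcc f hf) (form_self_nonneg _ f)
  have hW := Wt_nonneg S E hc a b
  have hW' := Wt_nonneg S' E' hc' a b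
  rw [h3] at h5
  rw [h1, h2] at h4
  set W := Wt S E c a b
  set W' := Wt S' E' c' a b
  set t := tau S E c
  set t' := tau S' E' c'
  have h6 : (t * W') ^ 2 ≤ t * W * (lam * (t' * W')) :=
    h4.trans (mul_le_mul_of_nonneg_left h5 (mul_nonneg ht.le hW))
  rcases hW'.eq_or_lt with h7 | h7
  · rw [← h7, zero_div]; positivity
  · rw [← mul_div_assoc, div_le_div_iff₀ ht' ht]
    have : t * W' * (W' * t) ≤ t * W' * (lam * W * t') := by nlinarith
    exact le_of_mul_le_mul_left this (mul_pos ht h7)

/-- weight of the spanning trees containing a given edge -/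
lemma sum_trees_mem {S : Set V} {E : Finset (Sym2 V)} (hE : Adm S E) (c : Sym2 V → ℝ) {a b : V}
    (hab : s(a, b) ∈ E) :
    ∑ T ∈ E.powerset, (if s(a, b) ∈ T then (if ST S T then ∏ f ∈ T, c f else 0) else 0) =
      c s(a, b) * Wt S E c a b := by
  obtain ⟨hne, ha, -⟩ := hE a b hab
  rw [sum_powerset_mem hab, Wt, Finset.mul_sum]
  refine Finset.sum_congr rfl fun F _ => ?_
  unfold tfw
  by_cases hF : s(a, b) ∈ F
  · rw [if_pos hF, if_neg (fun h => h.2.1 (gr_adj.2 ⟨hF, hne⟩).reachable), mul_zero]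
  · rw [if_neg hF, ST_insert_iff ha hne hF, Finset.prod_insert hF]
    split_ifs <;> simp

lemma tau_update {S : Set V} {E : Finset (Sym2 V)} (hE : Adm S E) (c : Sym2 V → ℝ) {a b : V}
    (hab : s(a, b) ∈ E) (hc : c s(a, b) = 1) :
    tau S E (Function.update c s(a, b) 2) = tau S E c + Wt S E c a b := by
  have := sum_trees_mem hE c hab
  rw [hc, one_mul] at this
  rw [← this, tau, tau, ← Finset.sum_add_distrib]
  refine Finset.sum_congr rfl fun T _ => ?_
  by_cases h1 : ST S T
  · by_cases h2 : s(a, b) ∈ T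
    · simp only [h1, h2, if_true]
      rw [Finset.prod_update_of_mem h2, ← Finset.mul_prod_erase T c h2, hc,
        Finset.sdiff_singleton_eq_erase]
      ring
    · simp only [h1, h2, if_true, if_false]
      rw [Finset.prod_update_of_notMem h2, add_zero]
  · simp [h1]

lemma tau_pos {S : Set V} {E : Finset (Sym2 V)} (h : ∃ T ⊆ E, ST S T) {c : Sym2 V → ℝ}
    (hc : ∀ f, 0 < c f) : 0 < tau S E c := by
  obtain ⟨T, hT, hT'⟩ := h
  refine Finset.sum_pos' (fun T _ => ?_) ⟨T, Finset.mem_powerset.2 hT, ?_⟩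
  · split_ifs
    · exact Finset.prod_nonneg fun f _ => (hc f).le
    · exact le_rfl
  · rw [if_pos hT']
    exact Finset.prod_pos fun f _ => hc f

/-- doubling weights on `A` -/
def dbl (A : Finset (Sym2 V)) (f : Sym2 V) : ℝ := if f ∈ A then 2 else 1

lemma dbl_pos (A : Finset (Sym2 V)) (f : Sym2 V) : 0 < dbl A f := by
  unfold dbl; split_ifs <;> norm_num

lemma tau_dbl_anti {S S' : Set V} {E E' : Finset (Sym2 V)} (hE : Adm S E) (hE' : Adm S' E')
    (hS : S ⊆ S') (hEE : E ⊆ E') (h : ∃ T ⊆ E, ST S T) (h' : ∃ T ⊆ E', ST S' T)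
    {A : Finset (Sym2 V)} (hA : A ⊆ E) :
    tau S' E' (dbl A) / tau S' E' (dbl ∅) ≤ tau S E (dbl A) / tau S E (dbl ∅) := by
  induction A using Finset.induction_on with
  | empty => rw [div_self (tau_pos h (dbl_pos _)).ne', div_self (tau_pos h' (dbl_pos _)).ne']
  | insert f A hf ih =>
    induction f using Sym2.ind with
    | h a b =>
    have hab : s(a, b) ∈ E := hA (Finset.mem_insert_self _ _)
    have ih := ih ((Finset.subset_insert _ _).trans hA)
    have hu : dbl (insert s(a, b) A) = Function.update (dbl A) s(a, b) 2 := by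
      funext f
      by_cases hfe : f = s(a, b)
      · subst hfe; simp [dbl]
      · rw [Function.update_of_ne hfe]; simp [dbl, hfe]
    have h1 : dbl A s(a, b) = 1 := by simp [dbl, hf]
    rw [hu, tau_update hE _ hab h1, tau_update hE' _ (hEE hab) h1]
    have ht := tau_pos h (dbl_pos A)
    have ht' := tau_pos h' (dbl_pos A)
    have hr := rayleigh hE hE' hS hEE (fun f => (dbl_pos A f).le) (fun f => (dbl_pos A f).le)
      zero_le_one (fun f _ => (one_mul _).ge) (hE a b hab).2.1 (hE a b hab).2.2 ht ht'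
    rw [one_mul] at hr
    have e : ∀ t W t0 : ℝ, 0 < t → (t + W) / t0 = t / t0 * (1 + W / t) := by
      intro t W t0 ht; field_simp
    rw [e _ _ _ ht, e _ _ _ ht']
    have hW' := Wt_nonneg S' E' (fun f => (dbl_pos A f).le) a b
    have := tau_pos h (dbl_pos (∅ : Finset (Sym2 V)))
    exact mul_le_mul ih (by linarith) (by positivity) (by positivity)

/-- probability that the weighted spanning tree contains `e` -/
def pin (S : Set V) (E : Finset (Sym2 V)) (c : Sym2 V → ℝ) (e : Sym2 V) : ℝ :=
  (∑ T ∈ E.powerset, (if e ∈ T then (if ST S T then ∏ f ∈ T, c f else 0) else 0)) / tau S E c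

lemma pin_nonneg (S : Set V) (E : Finset (Sym2 V)) {c : Sym2 V → ℝ} (hc : ∀ f, 0 ≤ c f)
    (e : Sym2 V) : 0 ≤ pin S E c e := by
  refine div_nonneg (Finset.sum_nonneg fun T _ => ?_) (Finset.sum_nonneg fun T _ => ?_)
  · split_ifs
    · exact Finset.prod_nonneg fun f _ => hc f
    all_goals exact le_rfl
  · split_ifs
    · exact Finset.prod_nonneg fun f _ => hc f
    · exact le_rfl

lemma pin_le_one (S : Set V) (E : Finset (Sym2 V)) {c : Sym2 V → ℝ} (hc : ∀ f, 0 ≤ c f)
    (e : Sym2 V) : pin S E c e ≤ 1 := by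
  refine div_le_one_of_le₀ (Finset.sum_le_sum fun T _ => ?_) (Finset.sum_nonneg fun T _ => ?_)
  · split_ifs
    · exact le_rfl
    · exact le_rfl
    · exact Finset.prod_nonneg fun f _ => hc f
    · exact le_rfl
  · split_ifs
    · exact Finset.prod_nonneg fun f _ => hc f
    · exact le_rfl

lemma pin_le {S : Set V} {E : Finset (Sym2 V)} (hE : Adm S E) {y y' : Sym2 V → ℝ} {D : ℝ}
    (hD : ∀ f ∈ E, |y f - y' f| ≤ D) (hD0 : 0 ≤ D) (e : Sym2 V) :
    pin S E (fun f => Real.exp (y' f)) e - pin S E (fun f => Real.exp (y f)) e ≤ 2 * D := by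
  have hp1 := pin_le_one S E (c := fun f => Real.exp (y' f)) (fun f => (Real.exp_pos _).le) e
  have hp0 := pin_nonneg S E (c := fun f => Real.exp (y f)) (fun f => (Real.exp_pos _).le) e
  have key : pin S E (fun f => Real.exp (y' f)) e ≤
      Real.exp (2 * D) * pin S E (fun f => Real.exp (y f)) e := by
    by_cases he : e ∈ E
    swap
    · have : pin S E (fun f => Real.exp (y' f)) e = 0 := by
        rw [pin, Finset.sum_eq_zero, zero_div]
        intro T hT
        rw [if_neg fun h => he (Finset.mem_powerset.1 hT h)]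
      rw [this]; positivity
    by_cases hex : ∃ T ⊆ E, ST S T
    swap
    · have : pin S E (fun f => Real.exp (y' f)) e = 0 := by
        rw [pin, Finset.sum_eq_zero, zero_div]
        intro T hT
        rw [if_neg (fun h => hex ⟨T, Finset.mem_powerset.1 hT, h⟩), ite_self]
      rw [this]; positivity
    induction e using Sym2.ind with
    | h a b =>
    have hr := rayleigh hE hE subset_rfl subset_rfl (c := fun f => Real.exp (y f))
      (c' := fun f => Real.exp (y' f)) (fun f => (Real.exp_pos _).le)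
      (fun f => (Real.exp_pos _).le) (lam := Real.exp D) (Real.exp_pos _).le
      (fun f hf => by
        rw [← Real.exp_add]
        exact Real.exp_le_exp.2 (by linarith [(abs_le.1 (hD f hf)).2]))
      (hE a b he).2.1 (hE a b he).2.2 (tau_pos hex fun f => Real.exp_pos _)
      (tau_pos hex fun f => Real.exp_pos _)
    rw [pin, pin, sum_trees_mem hE _ he, sum_trees_mem hE _ he, mul_div_assoc, mul_div_assoc]
    have h1 : Real.exp (y' s(a, b)) ≤ Real.exp D * Real.exp (y s(a, b)) := by
      rw [← Real.exp_add]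
      exact Real.exp_le_exp.2 (by linarith [(abs_le.1 (hD _ he)).1])
    have h2 : 0 ≤ Wt S E (fun f => Real.exp (y' f)) a b / tau S E (fun f => Real.exp (y' f)) :=
      div_nonneg (Wt_nonneg _ _ (fun f => (Real.exp_pos _).le) _ _)
        (tau_pos hex fun f => Real.exp_pos _).le
    refine (mul_le_mul h1 hr h2 (by positivity)).trans (le_of_eq ?_)
    rw [two_mul, Real.exp_add]
    ring
  have h3 : Real.exp (-(2 * D)) * pin S E (fun f => Real.exp (y' f)) e ≤
      pin S E (fun f => Real.exp (y f)) e := by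
    rw [Real.exp_neg, inv_mul_le_iff₀ (Real.exp_pos _)]
    exact key
  have h4 := Real.add_one_le_exp (-(2 * D))
  have hp0' := pin_nonneg S E (c := fun f => Real.exp (y' f)) (fun f => (Real.exp_pos _).le) e
  nlinarith

lemma abs_pin_sub_le {S : Set V} {E : Finset (Sym2 V)} (hE : Adm S E) {y y' : Sym2 V → ℝ} {D : ℝ}
    (hD : ∀ f ∈ E, |y f - y' f| ≤ D) (hD0 : 0 ≤ D) (e : Sym2 V) :
    |pin S E (fun f => Real.exp (y f)) e - pin S E (fun f => Real.exp (y' f)) e| ≤ 2 * D := by
  rw [abs_le]
  constructor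
  · linarith [pin_le hE hD hD0 e]
  · exact pin_le hE (fun f hf => by rw [abs_sub_comm]; exact hD f hf) hD0 e

end

end Crest.Agent.R168
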